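import Vale.Agent.P032.S5.H172.Rhombus
import Vale.Agent.P032.S5.H394.Arc

/-!
# P032: ends of the circle of a centre

`En T X z v`: `v` is an `X`-end of `S(z)`, `|T z| = 4`: `T v = X`, `T z ∩ X` is a pair, and the circle
`S(z)` carries exactly this pair on an open arc starting at `v`.
-/

open Set Filter Topology Metric

noncomputable section

namespace Vale.Agent.P032.Six

variable {k : ℕ}

/-- `v` is an `X`-end of the circle `S(z)` -/
def En (T : ℂ → Set (Fin k)) (X : Set (Fin k)) (z v : ℂ) : Prop :=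
  T v = X ∧ (T z).ncard = 4 ∧ (T z ∩ X).ncard = 2 ∧ dist v z = 1 ∧
    ∃ o ε : ℝ, (o = 1 ∨ o = -1) ∧ 0 < ε ∧
      ∀ t ∈ Ioo 0 ε, T (z + (v - z) * cis (-(o * t))) = T z ∩ X

theorem dist_rot {z v : ℂ} (h : dist v z = 1) (t : ℝ) : dist (z + (v - z) * cis t) z = 1 := by
  rw [dist_eq_norm, add_sub_cancel_left, norm_mul, norm_cis, mul_one, ← dist_eq_norm]
  exact h

theorem continuous_rot (z v : ℂ) (o : ℝ) :
    Continuous fun t : ℝ => z + (v - z) * cis (-(o * t)) :=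
  continuous_const.add (continuous_const.mul (continuous_cis.comp (by fun_prop)))

theorem cis_zero : cis 0 = 1 := by simp [cis]

theorem tendsto_rot (z v : ℂ) (o : ℝ) :
    Tendsto (fun t : ℝ => z + (v - z) * cis (-(o * t))) (𝓝[>] 0) (𝓝 v) := by
  have h := (continuous_rot z v o).tendsto 0
  have e : z + (v - z) * cis (-(o * 0)) = v := by rw [mul_zero, neg_zero, cis_zero]; ring
  rw [e] at h
  exact h.mono_left nhdsWithin_le_nhds

/-- for small `t ≠ 0` the rotation is not `1` or `-1` -/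
theorem cis_ne {o t : ℝ} (ho : o = 1 ∨ o = -1) (h0 : 0 < t) (h1 : t < 1) :
    cis (-(o * t)) ≠ 1 ∧ cis (-(o * t)) ≠ -1 := by
  have him : (cis (-(o * t))).im = -(o * Real.sin t) := by
    rw [cis, Complex.exp_ofReal_mul_I_im]
    rcases ho with rfl | rfl
    · rw [one_mul, one_mul, Real.sin_neg]
    · simp
  have hs : 0 < Real.sin t := Real.sin_pos_of_pos_of_lt_pi h0 (by linarith [Real.pi_gt_three])
  have hne : (cis (-(o * t))).im ≠ 0 := by
    rw [him]
    rcases ho with rfl | rfl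
    · rw [one_mul]; exact (neg_lt_zero.2 hs).ne
    · simpa using hs.ne'
  constructor
  · intro h
    exact hne (by rw [h]; simp)
  · intro h
    exact hne (by rw [h]; simp)

variable {U : Fin k → Set ℂ} {T : ℂ → Set (Fin k)} {X : Set (Fin k)} {z v q : ℂ}

namespace Irr

/-- an exact arc starts at an end -/
theorem en_acc (h : Irr U T) (hE : En T X z v) : Acc T z (T z ∩ X) v := by
  obtain ⟨-, -, h2, hd, o, ε, ho, hε, hg⟩ := hE
  intro V hV
  have h1 : ∀ᶠ t : ℝ in 𝓝[>] 0, z + (v - z) * cis (-(o * t)) ∈ V :=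
    (tendsto_rot z v o).eventually hV
  have h3 : ∀ᶠ t : ℝ in 𝓝[>] 0, t ∈ Ioo 0 ε := Ioo_mem_nhdsGT hε
  obtain ⟨t, ht, htε⟩ := (h1.and h3).exists
  exact ⟨_, ht, dist_rot hd _, h.pair_open h2 inter_subset_left (hg t htε).subset⟩

/-- **An `X`-end and a complementary end of one circle are not antipodal.** -/
theorem en_anti (h : Irr U T) (hX : X.ncard = 3) (hv : En T X z v) (hq : En T Xᶜ z q) :
    v + q ≠ 2 * z := by
  intro hop
  obtain ⟨hTv, -, -, hdv, -⟩ := hv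
  obtain ⟨-, -, h2, hdq, o, ε, ho, hε, hg⟩ := hq
  -- the second points
  have hlim : Tendsto (fun t : ℝ => v + (z + (q - z) * cis (-(o * t))) - z) (𝓝[>] 0) (𝓝 z) := by
    have h1 := ((tendsto_rot z q o).const_add v).sub_const z
    have e : v + q - z = z := by linear_combination hop
    rw [e] at h1
    exact h1
  have h1 := hlim.eventually (h.nhd z)
  have h3 : ∀ᶠ t : ℝ in 𝓝[>] 0, t ∈ Ioo 0 (min ε 1) :=
    Ioo_mem_nhdsGT (lt_min hε one_pos)
  obtain ⟨t, ht, htε⟩ := (h1.and h3).exists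
  have htε' : t ∈ Ioo 0 ε := ⟨htε.1, htε.2.trans_le (min_le_left _ _)⟩
  have ht1 : t < 1 := htε.2.trans_le (min_le_right _ _)
  obtain ⟨hc1, hc2⟩ := cis_ne ho htε.1 ht1
  have hqz : q - z ≠ 0 := by
    intro h0
    rw [dist_eq_norm, h0, norm_zero] at hdq
    exact zero_ne_one hdq
  set c := cis (-(o * t)) with hc
  set y := z + (q - z) * c with hy
  have hyz : dist y z = 1 := dist_rot hdq _
  have hTy : T y = T z ∩ Xᶜ := hg t htε'
  have hwv : dist (v + y - z) v = 1 := by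
    rw [dist_eq_norm, show v + y - z - v = y - z by ring, ← dist_eq_norm]; exact hyz
  have hyw : dist y (v + y - z) = 1 := by
    rw [dist_comm, dist_eq_norm, show v + y - z - y = v - z by ring, ← dist_eq_norm]; exact hdv
  refine h.not_sub hwv (by rw [hTv, hX]) fun i hi => ?_
  rw [hTv]
  by_contra hiX
  have hiz : i ∈ T z := ht hi
  have hJ : ∀ᶠ x in 𝓝[sphere z 1] y, i ∈ Pal U x := by
    filter_upwards [h.pair_open h2 inter_subset_left hTy.subset] with x hx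
    exact h.sub x (by rw [hx]; exact ⟨hiz, hiX⟩)
  rcases h.mx.partner_line hyz hJ hyw (h.sub _ hi) with h4 | h4
  · -- `y = q`
    apply hc1
    have : (q - z) * c = (q - z) * 1 := by
      rw [hy] at h4
      linear_combination h4 - hop
    exact mul_left_cancel₀ hqz this
  · apply hc2
    have : (q - z) * c = (q - z) * (-1) := by
      rw [hy] at h4
      linear_combination hop - h4
    exact mul_left_cancel₀ hqz this

end Irr

/-! ### six colours -/

section Six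

variable {U : Fin 6 → Set ℂ} {T : ℂ → Set (Fin 6)} {X : Set (Fin 6)} {z v q : ℂ}

theorem ncard_compl_three (hX : X.ncard = 3) : Xᶜ.ncard = 3 := by
  have := Set.ncard_add_ncard_compl X
  rw [Nat.card_eq_fintype_card, Fintype.card_fin] at this
  omega

theorem En.ne (hX : X.ncard = 3) {z' : ℂ} (hv : En T X z v) (hq : En T Xᶜ z' q) : v ≠ q := by
  rintro rfl
  have h1 : X = Xᶜ := hv.1.symm.trans hq.1
  obtain ⟨i, hi⟩ : X.Nonempty := Set.nonempty_of_ncard_ne_zero (by rw [hX]; norm_num)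
  have h2 : i ∈ Xᶜ := h1 ▸ hi
  exact h2 hi

theorem En.cov (hv : En T X z v) {z' : ℂ} (hq : En T Xᶜ z' q) (i : Fin 6) :
    i ∈ T v ∨ i ∈ T q := by
  rw [hv.1, hq.1]; exact em _

/-- a two-element subset of a three-element set -/
theorem exists_third {P : Set (Fin 6)} (hX : X.ncard = 3) (hPX : P ⊆ X) (hP : P.ncard = 2) :
    ∃ r, r ∉ P ∧ X = insert r P := by
  have h1 : (X \ P).ncard = 1 := by rw [Set.ncard_sdiff hPX (Set.toFinite _)]; omega
  obtain ⟨r, hr⟩ := Set.ncard_eq_one.1 h1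
  have hr' : r ∈ X \ P := by rw [hr]; rfl
  refine ⟨r, hr'.2, ?_⟩
  ext i
  constructor
  · intro hi
    by_cases hiP : i ∈ P
    · exact Or.inr hiP
    · left
      have : i ∈ X \ P := ⟨hi, hiP⟩
      rw [hr] at this
      exact this
  · rintro (rfl | hi)
    · exact hr'.1
    · exact hPX hi

namespace Irr

/-- one centre per pair -/
theorem en_unique (h : Irr U T) (hX : X.ncard = 3) {z₁ z₂ q₁ q₂ : ℂ} (h1 : En T X z₁ v)
    (h2 : En T X z₂ v) (g1 : En T Xᶜ z₁ q₁) (g2 : En T Xᶜ z₂ q₂)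
    (hP : T z₁ ∩ X = T z₂ ∩ X) : z₁ = z₂ := by
  obtain ⟨r, hr, hXr⟩ := exists_third hX (P := T z₁ ∩ X) inter_subset_right h1.2.2.1
  have hn : ∀ {z' q' : ℂ}, En T Xᶜ z' q' → (T q').ncard ≤ 3 := fun h' => by
    rw [h'.1, ncard_compl_three hX]
  refine h.rh_unique (u := v) (u' := q₂) (q := z₂) (u'' := q₁) (p := z₁) (P := T z₁ ∩ X) (r := r)
    (hn g2) (h2.cov g2) (h2.ne hX g2) ?_ ?_ (h.en_anti hX h2 g2) (hn g1) (h1.cov g1)
    (h1.ne hX g1) ?_ ?_ (h.en_anti hX h1 g1) ?_ hr ?_ ?_ ?_ ?_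
  · rw [dist_comm]; exact h2.2.2.2.1
  · rw [dist_comm]; exact g2.2.2.2.1
  · rw [dist_comm]; exact h1.2.2.2.1
  · rw [dist_comm]; exact g1.2.2.2.1
  · rw [h1.1]; exact hXr
  · exact h1.2.2.1.le
  · exact Set.nonempty_of_ncard_ne_zero (by rw [h1.2.2.1]; norm_num)
  · rw [h1.1]; exact hP.symm
  · rw [h1.1]

/-- at most three centres at a vertex -/
theorem en_three (h : Irr U T) (hX : X.ncard = 3) {z₁ z₂ z₃ z₄ : ℂ}
    (h1 : En T X z₁ v ∧ ∃ q, En T Xᶜ z₁ q) (h2 : En T X z₂ v ∧ ∃ q, En T Xᶜ z₂ q)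
    (h3 : En T X z₃ v ∧ ∃ q, En T Xᶜ z₃ q) (h4 : En T X z₄ v ∧ ∃ q, En T Xᶜ z₄ q) :
    z₁ = z₂ ∨ z₁ = z₃ ∨ z₁ = z₄ ∨ z₂ = z₃ ∨ z₂ = z₄ ∨ z₃ = z₄ := by
  -- the missing colour
  have key : ∀ {z : ℂ}, (En T X z v ∧ ∃ q, En T Xᶜ z q) → ∃ r ∈ X, T z ∩ X = X \ {r} := by
    rintro z ⟨hz, -⟩
    obtain ⟨r, hr, hXr⟩ := exists_third hX (P := T z ∩ X) inter_subset_right hz.2.2.1
    refine ⟨r, by rw [hXr]; exact mem_insert _ _, ?_⟩
    ext i
    constructor
    · intro hi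
      exact ⟨hi.2, fun h5 => hr (h5 ▸ hi)⟩
    · rintro ⟨hi, hir⟩
      rw [hXr] at hi
      rcases hi with rfl | hi
      · exact absurd rfl hir
      · exact hi
  have eqz : ∀ {z z' : ℂ}, (En T X z v ∧ ∃ q, En T Xᶜ z q) →
      (En T X z' v ∧ ∃ q, En T Xᶜ z' q) → T z ∩ X = T z' ∩ X → z = z' := by
    rintro z z' ⟨hz, q, hq⟩ ⟨hz', q', hq'⟩ he
    exact h.en_unique hX hz hz' hq hq' he
  obtain ⟨a, b, c, -, -, -, habc⟩ := Set.ncard_eq_three.1 hX
  obtain ⟨r1, hr1, e1⟩ := key h1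
  obtain ⟨r2, hr2, e2⟩ := key h2
  obtain ⟨r3, hr3, e3⟩ := key h3
  obtain ⟨r4, hr4, e4⟩ := key h4
  have hab : ∀ {r : Fin 6}, r ∈ X → r = a ∨ r = b ∨ r = c := by
    intro r hr
    rw [habc] at hr
    simpa using hr
  by_cases c12 : r1 = r2
  · exact Or.inl (eqz h1 h2 (by rw [e1, e2, c12]))
  by_cases c13 : r1 = r3
  · exact Or.inr (Or.inl (eqz h1 h3 (by rw [e1, e3, c13])))
  by_cases c14 : r1 = r4
  · exact Or.inr (Or.inr (Or.inl (eqz h1 h4 (by rw [e1, e4, c14]))))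
  by_cases c23 : r2 = r3
  · exact Or.inr (Or.inr (Or.inr (Or.inl (eqz h2 h3 (by rw [e2, e3, c23])))))
  by_cases c24 : r2 = r4
  · exact Or.inr (Or.inr (Or.inr (Or.inr (Or.inl (eqz h2 h4 (by rw [e2, e4, c24]))))))
  by_cases c34 : r3 = r4
  · exact Or.inr (Or.inr (Or.inr (Or.inr (Or.inr (eqz h3 h4 (by rw [e3, e4, c34]))))))
  exfalso
  have hs : ({r1, r2, r3, r4} : Set (Fin 6)) ⊆ X := by
    rintro m (rfl | rfl | rfl | rfl) <;> assumption
  have h5 := Set.ncard_le_ncard hs (Set.toFinite _)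
  rw [hX, Set.ncard_insert_of_notMem (by simp [c12, c13, c14]) (Set.toFinite _),
    Set.ncard_insert_of_notMem (by simp [c23, c24]) (Set.toFinite _), Set.ncard_pair c34] at h5
  omega

/-- the second centre of a rhombus carries four colours -/
theorem en_four (h : Irr U T) (hX : X.ncard = 3) (hv : En T X z v) (hq : En T Xᶜ z q)
    (h4 : (T (v + q - z)).ncard ≤ 4) : (T (v + q - z)).ncard = 4 := by
  have hne := hv.ne hX hq
  have hop := h.en_anti hX hv hq
  obtain ⟨g1, g2, g3, -⟩ := rh_geo hv.2.2.2.1 hq.2.2.2.1 hne hop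
  set w := v + q - z with hw
  have h3q : (T q).ncard ≤ 3 := by rw [hq.1, ncard_compl_three hX]
  have h3v : (T v).ncard ≤ 3 := by rw [hv.1, hX]
  have hcov := hv.cov hq
  have hcov' : ∀ i, i ∈ T q ∨ i ∈ T v := fun i => (hcov i).symm
  have g3' : q + v ≠ 2 * w := by rw [add_comm]; exact g3
  obtain ⟨s1, hs1, hs1u, -⟩ := h.five h3q hcov hne g1 g2 g3 0
  obtain ⟨s2, hs2, hs2u, hs12⟩ := h.five h3q hcov hne g1 g2 g3 s1
  obtain ⟨t1, ht1, ht1u, -⟩ := h.five h3v hcov' hne.symm g2 g1 g3' 0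
  obtain ⟨t2, ht2, ht2u, ht12⟩ := h.five h3v hcov' hne.symm g2 g1 g3' t1
  have hd : ∀ {s t : Fin 6}, s ∈ T v → t ∈ T q → s ≠ t := by
    rintro s t hs ht rfl
    rw [hv.1] at hs
    rw [hq.1] at ht
    exact ht hs
  have hs : ({s1, s2, t1, t2} : Set (Fin 6)) ⊆ T w := by
    rintro m (rfl | rfl | rfl | rfl) <;> assumption
  have h5 := Set.ncard_le_ncard hs (Set.toFinite _)
  rw [Set.ncard_insert_of_notMem (by simp [hs12.symm, hd hs1u ht1u, hd hs1u ht2u])
    (Set.toFinite _), Set.ncard_insert_of_notMem (by simp [hd hs2u ht1u, hd hs2u ht2u])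
    (Set.toFinite _), Set.ncard_pair ht12.symm] at h5
  omega

end Irr

end Six

end Vale.Agent.P032.Six
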