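import Vale.Agent.P032.S5.H12.Inn
import Vale.Agent.P032.S5.H394.Ends
import Vale.Agent.P032.Net.H672.Net

/-!
# P032: the ends of the two-pair centres, definitions and first facts

`EE T z v`: `v` is an end of an exact arc of `S(z)`, and `S(z)` has an exact arc with the two other
colours of `T z`.  `ore T z v` the orientation, `inn U T z v` the inner colour.
-/

open Set Filter Topology Metric

noncomputable section

namespace Vale.Agent.P032.Six

variable {U : Fin 6 → Set ℂ} {T : ℂ → Set (Fin 6)} {X : Set (Fin 6)} {z v q : ℂ} {o : ℝ}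

/-- an end of an exact arc of `S(z)`, `z` a two-pair centre -/
def EE (T : ℂ → Set (Fin 6)) (z v : ℂ) : Prop :=
  (∃ o, OEnd T z v o) ∧ ∃ p, Arc T z p (T z \ T v)

/-- the orientation of an end -/
def ore (T : ℂ → Set (Fin 6)) (z v : ℂ) : ℝ := by
  classical
  exact if OEnd T z v 1 then 1 else -1

/-- `i` is the inner, `j` the outer colour of the pair `T z ∩ T v` -/
def InnP (U : Fin 6 → Set ℂ) (T : ℂ → Set (Fin 6)) (z v : ℂ) (i : Fin 6) : Prop :=
  ∃ j, i ≠ j ∧ T z ∩ T v = {i, j} ∧ Sd U z v i j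

/-- the inner colour -/
def inn (U : Fin 6 → Set ℂ) (T : ℂ → Set (Fin 6)) (z v : ℂ) : Fin 6 := by
  classical
  exact if h : ∃ i, InnP U T z v i then h.choose else 0

theorem OEnd.arc (h : Irr U T) (hv : OEnd T z v o) : ∃ p, Arc T z p (T z ∩ T v) := by
  obtain ⟨ho, hd, -, -, h2, ε, hε, hg⟩ := hv
  exact ⟨_, dist_rot hd _, h.pair_open h2 inter_subset_left
    (hg (ε / 2) ⟨by linarith, by linarith⟩).subset⟩

namespace EE

theorem dist (hv : EE T z v) : Dist.dist v z = 1 := by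
  obtain ⟨⟨o, ho⟩, -⟩ := hv
  exact ho.dist

theorem card_z (hv : EE T z v) : (T z).ncard = 4 := by
  obtain ⟨⟨o, ho⟩, -⟩ := hv
  exact ho.2.2.1

theorem card_v (hv : EE T z v) : (T v).ncard = 3 := by
  obtain ⟨⟨o, ho⟩, -⟩ := hv
  exact ho.2.2.2.1

theorem card_i (hv : EE T z v) : (T z ∩ T v).ncard = 2 := by
  obtain ⟨⟨o, ho⟩, -⟩ := hv
  exact ho.2.2.2.2.1

theorem card_i' (hv : EE T z v) : (T v ∩ T z).ncard = 2 := by
  rw [inter_comm]; exact hv.card_i

theorem card_s (hv : EE T z v) : (T z \ T v).ncard = 2 := by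
  have h1 := Set.ncard_inter_add_ncard_sdiff_eq_ncard (T z) (T v) (Set.toFinite _)
  have h2 := hv.card_z
  have h3 := hv.card_i
  omega

/-- the centre in the form `DPt` -/
theorem dpt (h : Irr U T) (hv : EE T z v) {a b c d : Fin 6} (h1 : T z ∩ T v = {a, b})
    (h2 : T z \ T v = {c, d}) : DPt T z a b c d := by
  have hc1 := hv.card_i
  have hc2 := hv.card_s
  rw [h1] at hc1
  rw [h2] at hc2
  have hab : a ≠ b := by
    rintro rfl
    rw [pair_eq_singleton, ncard_singleton] at hc1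
    omega
  have hcd : c ≠ d := by
    rintro rfl
    rw [pair_eq_singleton, ncard_singleton] at hc2
    omega
  have hdis : Disjoint ({a, b} : Set (Fin 6)) {c, d} := by
    rw [← h1, ← h2]
    exact Set.disjoint_left.2 fun i hi hi' => hi'.2 hi.2
  have hn : ∀ {i j : Fin 6}, i ∈ ({a, b} : Set (Fin 6)) → j ∈ ({c, d} : Set (Fin 6)) → i ≠ j := by
    rintro i j hi hj rfl
    exact Set.disjoint_left.1 hdis hi hj
  obtain ⟨⟨o, ho⟩, p2, hp2⟩ := hv
  obtain ⟨p1, hp1⟩ := ho.arc h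
  rw [h1] at hp1
  rw [h2] at hp2
  refine ⟨?_, hn (by simp) (by simp), hn (by simp) (by simp), hn (by simp) (by simp),
    hn (by simp) (by simp), hab, hcd, ⟨p1, hp1⟩, ⟨p2, hp2⟩⟩
  rw [← Set.inter_union_sdiff (T z) (T v), h1, h2]
  ext i
  simp only [mem_union, mem_insert_iff, mem_singleton_iff]
  tauto

/-- names of the four colours -/
theorem names (hv : EE T z v) :
    ∃ a b c d : Fin 6, T z ∩ T v = {a, b} ∧ T z \ T v = {c, d} := by
  obtain ⟨a, b, -, h1⟩ := Set.ncard_eq_two.1 hv.card_i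
  obtain ⟨c, d, -, h2⟩ := Set.ncard_eq_two.1 hv.card_s
  exact ⟨a, b, c, d, h1, h2⟩

theorem innP_unique (h : Irr U T) {i i' : Fin 6} (h1 : InnP U T z v i)
    (h2 : InnP U T z v i') : i = i' := by
  obtain ⟨j, hij, e1, s1⟩ := h1
  obtain ⟨j', hij', e2, s2⟩ := h2
  by_contra hne
  have e3 : i' = j := by
    have : i' ∈ ({i, j} : Set (Fin 6)) := by rw [← e1, e2]; simp
    rcases this with h3 | h3
    · exact absurd h3.symm hne
    · exact h3
  have e4 : j' = i := by
    have : i ∈ ({i', j'} : Set (Fin 6)) := by rw [← e2, e1]; simp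
    rcases this with h3 | h3
    · exact absurd h3 hne
    · exact h3.symm
  subst e3
  subst e4
  have hm : j' ∈ T v := by
    have : j' ∈ T z ∩ T v := by rw [e1]; simp
    exact this.2
  exact h.sd_unique hm s1 s2

theorem innP_of_dpt (h : Irr U T) {a b c d : Fin 6} (hz : DPt T z a b c d)
    (hv : Dist.dist v z = 1) (h1 : T z ∩ T v = {a, b}) : ∃ i, InnP U T z v i := by
  rcases h.sides hz hv with h2 | h2
  · exact ⟨a, b, hz.ab, h1, h2⟩
  · exact ⟨b, a, hz.ab.symm, by rw [h1, pair_comm], h2⟩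

theorem inn_eq (h : Irr U T) {i : Fin 6} (h1 : InnP U T z v i) : inn U T z v = i := by
  have h2 : ∃ i, InnP U T z v i := ⟨i, h1⟩
  have h3 : inn U T z v = h2.choose := by unfold inn; rw [dif_pos h2]
  rw [h3]
  exact innP_unique h h2.choose_spec h1

theorem inn_iff (h : Irr U T) {a b c d : Fin 6} (hz : DPt T z a b c d)
    (hv : Dist.dist v z = 1) (h1 : T z ∩ T v = {a, b}) : inn U T z v = a ↔ Sd U z v a b := by
  constructor
  · intro h2
    rcases h.sides hz hv with h3 | h3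
    · exact h3
    · have := inn_eq (U := U) (T := T) h ⟨a, hz.ab.symm, by rw [h1, pair_comm], h3⟩
      rw [h2] at this
      exact absurd this hz.ab
  · intro h2
    exact inn_eq h ⟨b, hz.ab, h1, h2⟩

theorem inn_mem (h : Irr U T) (hv : EE T z v) : inn U T z v ∈ T v ∩ T z := by
  obtain ⟨a, b, c, d, h1, h2⟩ := hv.names
  obtain ⟨i, hi⟩ := innP_of_dpt h (hv.dpt h h1 h2) hv.dist h1
  rw [inn_eq h hi]
  obtain ⟨j, -, e, -⟩ := hi
  have : i ∈ T z ∩ T v := by rw [e]; simp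
  exact ⟨this.2, this.1⟩

/-- the equality of inner colours in terms of `Sd` -/
theorem inn_eq_iff (h : Irr U T) {v' : ℂ} {a b c d : Fin 6} (hz : DPt T z a b c d)
    (hv : Dist.dist v z = 1) (hv' : Dist.dist v' z = 1) (h1 : T z ∩ T v = {a, b})
    (h1' : T z ∩ T v' = {a, b}) :
    inn U T z v = inn U T z v' ↔ (Sd U z v a b ↔ Sd U z v' a b) := by
  rw [← inn_iff h hz hv h1, ← inn_iff h hz hv' h1']
  have key : ∀ {w : ℂ}, Dist.dist w z = 1 → T z ∩ T w = {a, b} →
      inn U T z w = a ∨ inn U T z w = b := by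
    intro w hw hw1
    rcases h.sides hz hw with h3 | h3
    · exact Or.inl (inn_eq h ⟨b, hz.ab, hw1, h3⟩)
    · exact Or.inr (inn_eq h ⟨a, hz.ab.symm, by rw [hw1, pair_comm], h3⟩)
  rcases key hv h1 with h2 | h2 <;> rcases key hv' h1' with h3 | h3
  · simp only [h2, h3]
  · rw [h2, h3]
    exact ⟨fun h4 => absurd h4 hz.ab, fun h4 => absurd (h4.1 rfl) hz.ab.symm⟩
  · rw [h2, h3]
    exact ⟨fun h4 => absurd h4.symm hz.ab, fun h4 => absurd (h4.2 rfl) hz.ab.symm⟩
  · simp only [h2, h3]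

/-- the field `LP2` -/
theorem lp2 (h : Irr U T) {v' : ℂ} (hq : EE T z q) (hv : EE T z v) (hv' : EE T z v')
    (h1 : T v ∩ T z = T z \ T q) (h1' : T v' ∩ T z = T z \ T q) :
    inn U T z v = inn U T z v' ↔ 0 < cr (q - z) (v - z) * cr (q - z) (v' - z) := by
  rw [inter_comm] at h1 h1'
  obtain ⟨c, d, -, h2⟩ := Set.ncard_eq_two.1 hq.card_i
  obtain ⟨a, b, -, h3⟩ := Set.ncard_eq_two.1 hv.card_i
  have h4 : T z \ T v = {c, d} := by
    rw [← h2]
    ext i
    constructor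
    · rintro ⟨hi, hi'⟩
      refine ⟨hi, ?_⟩
      by_contra h5
      have : i ∈ T z ∩ T v := by rw [h1]; exact ⟨hi, h5⟩
      exact hi' this.2
    · rintro ⟨hi, hi'⟩
      refine ⟨hi, fun h5 => ?_⟩
      have : i ∈ T z \ T q := by rw [← h1]; exact ⟨hi, h5⟩
      exact this.2 hi'
  have hz := hv.dpt h h3 h4
  have h3' : T z ∩ T v' = {a, b} := by rw [h1', ← h1, h3]
  obtain ⟨⟨oq, hoq⟩, -⟩ := hq
  have hacc := hoq.acc
  rw [h2] at hacc
  have hm : ∀ {w : ℂ}, T z ∩ T w = {a, b} → a ∈ T w ∧ b ∈ T w := by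
    intro w hw
    have e1 : a ∈ T z ∩ T w := by rw [hw]; simp
    have e2 : b ∈ T z ∩ T w := by rw [hw]; simp
    exact ⟨e1.2, e2.2⟩
  have hcq : c ∈ T q := by
    have : c ∈ T z ∩ T q := by rw [h2]; simp
    exact this.2
  have hne : ∀ {w : ℂ}, T z ∩ T w = {a, b} → q ≠ w := by
    rintro w hw rfl
    have : c ∈ T z ∩ T q := by rw [h2]; simp
    rw [hw] at this
    rcases this with h5 | h5
    · exact hz.ac h5.symm
    · exact hz.bc (by simpa using h5.symm)
  rw [inn_eq_iff h hz hv.dist hv'.dist h3 h3']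
  exact h.sd_iff_acc hz hacc hv.dist hv'.dist (hm h3).1 (hm h3).2 (hm h3').1 (hm h3').2 (hne h3)
    (hne h3')

end EE

end Vale.Agent.P032.Six
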