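import Vale.Agent.P032.S5.H12.Fld
import Vale.Agent.P032.S5.H80.Ends
import Vale.Agent.P032.S5.H349.Bridge

/-!
# P032: rhombus, first line lemma, coverage and automatic ends for `EE`
-/

open Set Filter Topology Metric

noncomputable section

namespace Vale.Agent.P032.Six

variable {U : Fin 6 → Set ℂ} {T : ℂ → Set (Fin 6)} {X : Set (Fin 6)} {z v q m : ℂ} {o : ℝ}
  {a b c d e f : Fin 6}

theorem ore_spec (hv : ∃ o, OEnd T z v o) : OEnd T z v (ore T z v) := by
  unfold ore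
  split_ifs with h1
  · exact h1
  · obtain ⟨o, ho⟩ := hv
    rcases ho.1 with rfl | rfl
    · exact absurd ho h1
    · exact ho

theorem ore_or (T : ℂ → Set (Fin 6)) (z v : ℂ) : ore T z v = 1 ∨ ore T z v = -1 := by
  unfold ore
  split_ifs <;> simp

/-- names of the six colours at a complementary pair of points of `S(z)` -/
theorem exists_cfg (h : Irr U T) (hv : EE T z v) (hm : dist m z = 1) (hTm : T m = T v)
    (hq : dist q z = 1) (hc : T q = (T v)ᶜ) :
    ∃ a b c d e f, Cfg T z m q a b c d e f ∧ T z ∩ T v = {a, b} ∧ T z \ T v = {c, d} := by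
  obtain ⟨a, b, c, d, h1, h2⟩ := hv.names
  have hz := hv.dpt h h1 h2
  have hc3 : (T v)ᶜ.ncard = 3 := ncard_compl_three hv.card_v
  obtain ⟨e, he, hTe⟩ := exists_third hv.card_v (P := T z ∩ T v) inter_subset_right hv.card_i
  have hsub : T z \ T v ⊆ (T v)ᶜ := fun i hi => hi.2
  obtain ⟨f, hf, hTf⟩ := exists_third hc3 (P := T z \ T v) hsub hv.card_s
  have heT : e ∈ T v := by rw [hTe]; exact mem_insert _ _
  have hfT : f ∈ (T v)ᶜ := by rw [hTf]; exact mem_insert _ _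
  refine ⟨a, b, c, d, e, f, ⟨hz, hm, hq, ?_, ?_, ?_, ?_, ?_⟩, h1, h2⟩
  · rw [hTm, hTe, h1]; ext i; simp only [mem_insert_iff, mem_singleton_iff]; tauto
  · rw [hc, hTf, h2]; ext i; simp only [mem_insert_iff, mem_singleton_iff]; tauto
  · exact fun h5 => he ⟨h5, heT⟩
  · exact fun h5 => hf ⟨h5, hfT⟩
  · rintro rfl
    exact hfT heT

/-- the same in normal form -/
theorem exists_ncfg (h : Irr U T) (hv : EE T z v) (hm : dist m z = 1) (hTm : T m = T v)
    (hq : dist q z = 1) (hc : T q = (T v)ᶜ) (h4 : (T (m + q - z)).ncard ≤ 4) :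
    ∃ a b c d e f, NCfg T z m q a b c d e f ∧ T z ∩ T v = {a, b} ∧ T z \ T v = {c, d} := by
  obtain ⟨a, b, c, d, e, f, C, h1, h2⟩ := exists_cfg h hv hm hTm hq hc
  rcases C.normal h h4 with N | N | N | N
  · exact ⟨a, b, c, d, e, f, N, h1, h2⟩
  · exact ⟨b, a, c, d, e, f, N, by rw [h1, pair_comm], h2⟩
  · exact ⟨a, b, d, c, e, f, N, h1, by rw [h2, pair_comm]⟩
  · exact ⟨b, a, d, c, e, f, N, by rw [h1, pair_comm], by rw [h2, pair_comm]⟩

theorem CEnd.oend {P : Set (Fin 6)} {l : Fin 6} (h1 : CEnd T z v P l o) (hd : dist v z = 1)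
    (h4 : (T z).ncard = 4) (h3 : (T v).ncard = 3) (h2 : P.ncard = 2) (hP : T z ∩ T v = P) :
    OEnd T z v o := by
  obtain ⟨ε, hε, hg⟩ := mem_nhdsGT_iff_exists_Ioo_subset.1 h1.arc
  refine ⟨h1.o1, hd, h4, h3, by rw [hP]; exact h2, ε, hε, fun t ht => ?_⟩
  have := hg ht
  rw [hP, show -(o * t) = -o * t by ring]
  exact this

/-- the orientation of a clean end -/
theorem CEnd.ore_eq {P : Set (Fin 6)} {l : Fin 6} (h1 : CEnd T z v P l o)
    (hP : T z ∩ T v = P) {o' : ℝ} (h2 : OEnd T z v o') : o' = o := by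
  by_contra hne
  have h3 : o' = -o := by
    rcases h1.o1 with h4 | h4 <;> rcases h2.1 with h5 | h5
    · exact absurd (h5.trans h4.symm) hne
    · rw [h4, h5]
    · rw [h4, h5]; norm_num
    · exact absurd (h5.trans h4.symm) hne
  obtain ⟨-, -, -, -, -, ε, hε, hg⟩ := h2
  have h6 : ∀ᶠ t : ℝ in 𝓝[>] 0, t ∈ Ioo 0 ε := Ioo_mem_nhdsGT hε
  obtain ⟨t, ht, htε⟩ := (h1.after.and h6).exists
  refine ht.2 ?_
  have := hg t htε
  rw [h3, show -(-o * t) = o * t by ring] at this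
  rw [this, hP]

theorem NCfg.inter (C : NCfg T z v q a b c d e f) : T z ∩ T v = {a, b} := by
  rw [C.dp.pal, C.TV]
  ext i
  simp only [mem_inter_iff, mem_insert_iff, mem_singleton_iff]
  constructor
  · rintro ⟨h1, rfl | rfl | rfl⟩
    · simp
    · simp
    · rcases h1 with h1 | h1 | h1 | h1
      · exact absurd h1 C.ea
      · exact absurd h1 C.eb
      · exact absurd h1 C.ec
      · exact absurd h1 C.ed
  · rintro (rfl | rfl) <;> simp

theorem NCfg.sdiff (C : NCfg T z v q a b c d e f) : T z \ T v = {c, d} := by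
  rw [C.dp.pal, C.TV]
  ext i
  simp only [Set.mem_sdiff, mem_insert_iff, mem_singleton_iff, not_or]
  constructor
  · rintro ⟨h1 | h1 | h1 | h1, h2, h3, h4⟩
    · exact absurd h1 h2
    · exact absurd h1 h3
    · exact Or.inl h1
    · exact Or.inr h1
  · rintro (rfl | rfl)
    · exact ⟨by simp, C.dp.ac.symm, C.dp.bc.symm, C.ec.symm⟩
    · exact ⟨by simp, C.dp.ad.symm, C.dp.bd.symm, C.ed.symm⟩

theorem NCfg.card_V (C : NCfg T z v q a b c d e f) : (T v).ncard = 3 := by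
  rw [C.TV, Set.ncard_insert_of_notMem, Set.ncard_pair C.eb.symm]
  simp only [mem_insert_iff, mem_singleton_iff, not_or]
  exact ⟨C.dp.ab, C.ea.symm⟩

theorem NCfg.card_Z (C : NCfg T z v q a b c d e f) : (T z).ncard = 4 := by
  rw [C.dp.pal, Set.ncard_insert_of_notMem, Set.ncard_insert_of_notMem, Set.ncard_pair C.dp.cd]
  · simp only [mem_insert_iff, mem_singleton_iff, not_or]
    exact ⟨C.dp.bc, C.dp.bd⟩
  · simp only [mem_insert_iff, mem_singleton_iff, not_or]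
    exact ⟨C.dp.ab, C.dp.ac, C.dp.ad⟩

/-- a point with the palette of an end is an end (and clean) -/
theorem NCfg.ee (C : NCfg T z v q a b c d e f) (h : Irr U T) : EE T z v := by
  obtain ⟨o, h1, -⟩ := C.lp1 h
  refine ⟨⟨o, h1.oend C.hV C.card_Z C.card_V (Set.ncard_pair C.dp.ab) C.inter⟩, ?_⟩
  obtain ⟨p, hp⟩ := C.dp.arc2
  exact ⟨p, by rw [C.sdiff]; exact hp⟩

namespace EE

/-- the field `auto` -/
theorem auto (h : Irr U T) (h4 : ∀ z, (T z).ncard ≤ 4) (hv : EE T z v) (hq : EE T z q)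
    (hc : T q = (T v)ᶜ) (hm : Dist.dist m z = 1) (hTm : T m = T v) : EE T z m := by
  obtain ⟨a, b, c, d, e, f, C, -, -⟩ := exists_ncfg h hv hm hTm hq.dist hc (h4 _)
  exact C.ee h

/-- the field `rh`, first half -/
theorem rh (h : Irr U T) (h4 : ∀ z, (T z).ncard ≤ 4) (hv : EE T z v) (hq : EE T z q)
    (hc : T q = (T v)ᶜ) : EE T (v + q - z) v := by
  obtain ⟨a, b, c, d, e, f, C, -, -⟩ := exists_ncfg h hv hv.dist rfl hq.dist hc (h4 _)
  exact (C.conj h).ee h

theorem rh' (h : Irr U T) (h4 : ∀ z, (T z).ncard ≤ 4) (hv : EE T z v) (hq : EE T z q)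
    (hc : T q = (T v)ᶜ) : EE T (v + q - z) q := by
  have := rh h h4 hq hv (by rw [hc, compl_compl])
  rwa [add_comm q v] at this

/-- the field `cov` -/
theorem cov (h : Irr U T) (h4 : ∀ z, (T z).ncard ≤ 4) (hv : EE T z v) (hq : EE T z q)
    (hc : T q = (T v)ᶜ) (i : Fin 6) : i ∈ T z ∨ i ∈ T (v + q - z) := by
  obtain ⟨a, b, c, d, e, f, C, -, -⟩ := exists_ncfg h hv hv.dist rfl hq.dist hc (h4 _)
  rw [C.dp.pal, C.TW]
  have := C.cover i
  simp only [mem_insert_iff, mem_singleton_iff]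
  tauto

/-- not antipodal -/
theorem anti (h : Irr U T) (hv : EE T z v) (hq : EE T z q) (hc : T q = (T v)ᶜ) :
    v + q ≠ 2 * z := by
  obtain ⟨a, b, c, d, e, f, C, -, -⟩ := exists_cfg h hv hv.dist rfl hq.dist hc
  exact C.anti h

/-- the field `LP1` -/
theorem lp1 (h : Irr U T) (h4 : ∀ z, (T z).ncard ≤ 4) (hv : EE T z v) (hq : EE T z q)
    (hc : T q = (T v)ᶜ) :
    0 < ore T z v * cr (z - v) (q - z) ↔ inn U T (v + q - z) v ∈ T z := by
  obtain ⟨a, b, c, d, e, f, C, -, -⟩ := exists_ncfg h hv hv.dist rfl hq.dist hc (h4 _)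
  obtain ⟨o, h1, h2⟩ := C.lp1 h
  have ho : ore T z v = o := h1.ore_eq C.inter (ore_spec hv.1)
  rw [ho]
  rw [show v + q - z - v = q - z by ring] at h2
  have hi := (C.conj h).inter
  have haz : a ∈ T z := by rw [C.dp.pal]; simp
  rcases h2 with ⟨h2, h3⟩ | ⟨h2, h3⟩
  · rw [inn_eq h ⟨e, C.ea.symm, hi, h2⟩]
    exact ⟨fun _ => haz, fun _ => h3⟩
  · rw [inn_eq h ⟨a, C.ea, by rw [hi, pair_comm], h2⟩]
    exact ⟨fun h5 => absurd h5 (not_lt.2 h3.le), fun h5 => absurd h5 C.he⟩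

end EE

end Vale.Agent.P032.Six
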