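import Vale.Agent.P032.S5.H12.En

/-!
# P032: the rhombus for ends, palette part
-/

open Set Filter Topology Metric

noncomputable section

namespace Vale.Agent.P032.Six

variable {U : Fin 6 → Set ℂ} {T : ℂ → Set (Fin 6)} {X : Set (Fin 6)} {z v q : ℂ}

theorem En.swap_compl (hq : En T Xᶜ z q) (hv : En T X z v) : En T Xᶜᶜ z v := by
  rw [compl_compl]; exact hv

namespace Irr

/-- **Rhombus, palette part.** -/
theorem en_rh (h : Irr U T) (hX : X.ncard = 3) (hv : En T X z v) (hq : En T Xᶜ z q)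
    (h4 : (T (v + q - z)).ncard = 4) :
    (T (v + q - z) ∩ X).ncard = 2 ∧ Acc T (v + q - z) (T (v + q - z) ∩ X) v ∧
      ∃ e, e ∈ X ∧ e ∉ T z ∧ e ∈ T (v + q - z) := by
  obtain ⟨e, he, hXe⟩ := exists_third hX (P := T z ∩ X) inter_subset_right hv.2.2.1
  obtain ⟨a, b, hab, hPab⟩ := Set.ncard_eq_two.1 hv.2.2.1
  have hne := hv.ne hX hq
  have hop := h.en_anti hX hv hq
  obtain ⟨g1, g2, g3, g4⟩ := rh_geo hv.2.2.2.1 hq.2.2.2.1 hne hop
  have hacc := h.en_acc hv
  have heX : e ∈ X := by rw [hXe]; exact mem_insert _ _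
  have hez : e ∉ T z := fun h5 => he ⟨h5, heX⟩
  rw [hPab] at he hacc
  have hea : e ≠ a := fun h5 => he (by rw [h5]; simp)
  have heb : e ≠ b := fun h5 => he (by rw [h5]; simp)
  have hTv : T v = {e, a, b} := by rw [hv.1, hXe, hPab]
  have hdis : Disjoint (T v) (T q) := by
    rw [hv.1, hq.1]; exact disjoint_compl_right
  have key := h.rh_side (by rw [hv.1, hX]) (by rw [hq.1, ncard_compl_three hX]) (hv.cov hq) hdis hne
    g1 g2 g3 hTv hea heb hab g4 hacc h4
  rw [hv.1] at key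
  rcases key with ⟨k1, k2, k3⟩ | ⟨k1, k2, k3⟩
  · refine ⟨by rw [k1, ncard_pair hea], by rw [k1]; exact k3, e, heX, hez, ?_⟩
    have : e ∈ T (v + q - z) ∩ X := by rw [k1]; simp
    exact this.1
  · refine ⟨by rw [k1, ncard_pair heb], by rw [k1]; exact k3, e, heX, hez, ?_⟩
    have : e ∈ T (v + q - z) ∩ X := by rw [k1]; simp
    exact this.1

end Irr

end Vale.Agent.P032.Six
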