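import Vale.Agent.P032.S5.H80.Anti
import Vale.Agent.P032.S5.H12.Rh

/-!
# P032: inner colours at the points of the circle about a two-pair centre
-/

open Set Filter Topology Metric

noncomputable section

namespace Vale.Agent.P032.Six

variable {k : ℕ} {U : Fin k → Set ℂ} {T : ℂ → Set (Fin k)}

theorem cr_comm (a b : ℂ) : cr b a = -cr a b := by unfold cr; ring

/-- the inner colour changes exactly at the line of a direction of the `cd`-arc -/
theorem Irr.sd_sign (h : Irr U T) {z g : ℂ} {a b c d : Fin k} (hz : DPt T z a b c d)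
    (hg : Arc T z g {c, d}) :
    (∀ V, dist V z = 1 → (0 < cr (g - z) (V - z) → Sd U z V a b) ∧
        (cr (g - z) (V - z) < 0 → Sd U z V b a)) ∨
      (∀ V, dist V z = 1 → (0 < cr (g - z) (V - z) → Sd U z V b a) ∧
        (cr (g - z) (V - z) < 0 → Sd U z V a b)) := by
  rcases h.d0 hz hg with ⟨h1, h2⟩ | ⟨h1, h2⟩
  · left
    intro V hV
    rw [← ip_I]
    exact ⟨fun h3 => h.mx.sd_of_rays h1 h2 hV h3, fun h3 => h.mx.sd_of_rays' h1 h2 hV h3⟩
  · right
    intro V hV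
    rw [← ip_I]
    exact ⟨fun h3 => h.mx.sd_of_rays h1 h2 hV h3, fun h3 => h.mx.sd_of_rays' h1 h2 hV h3⟩

/-- two points on one side resp. on different sides of the line of a `cd`-direction -/
theorem Irr.sd_iff (h : Irr U T) {z g v v' : ℂ} {a b c d : Fin k} (hz : DPt T z a b c d)
    (hg : Arc T z g {c, d}) (hv : dist v z = 1) (hv' : dist v' z = 1) (ha : a ∈ T v)
    (ha' : a ∈ T v') (h0 : cr (g - z) (v - z) ≠ 0) (h0' : cr (g - z) (v' - z) ≠ 0) :
    (Sd U z v a b ↔ Sd U z v' a b) ↔ 0 < cr (g - z) (v - z) * cr (g - z) (v' - z) := by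
  have key : ∀ {V : ℂ}, a ∈ T V → Sd U z V b a → ¬ Sd U z V a b := fun hV h1 h2 =>
    h.sd_unique hV h2 h1
  rcases h.sd_sign hz hg with hs | hs
  · obtain ⟨p1, p2⟩ := hs v hv
    obtain ⟨p1', p2'⟩ := hs v' hv'
    rcases lt_or_gt_of_ne h0 with h1 | h1 <;> rcases lt_or_gt_of_ne h0' with h2 | h2
    · have e1 := key ha (p2 h1)
      have e2 := key ha' (p2' h2)
      exact ⟨fun _ => mul_pos_of_neg_of_neg h1 h2, fun _ => ⟨fun h5 => absurd h5 e1,
        fun h5 => absurd h5 e2⟩⟩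
    · have e1 := key ha (p2 h1)
      exact ⟨fun h5 => absurd (h5.2 (p1' h2)) e1, fun h5 => absurd h5
        (not_lt.2 (mul_nonpos_of_nonpos_of_nonneg h1.le h2.le))⟩
    · have e2 := key ha' (p2' h2)
      exact ⟨fun h5 => absurd (h5.1 (p1 h1)) e2, fun h5 => absurd h5
        (not_lt.2 (mul_nonpos_of_nonneg_of_nonpos h1.le h2.le))⟩
    · exact ⟨fun _ => mul_pos h1 h2, fun _ => ⟨fun _ => p1' h2, fun _ => p1 h1⟩⟩
  · obtain ⟨p1, p2⟩ := hs v hv
    obtain ⟨p1', p2'⟩ := hs v' hv'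
    rcases lt_or_gt_of_ne h0 with h1 | h1 <;> rcases lt_or_gt_of_ne h0' with h2 | h2
    · exact ⟨fun _ => mul_pos_of_neg_of_neg h1 h2, fun _ => ⟨fun _ => p2' h2, fun _ => p2 h1⟩⟩
    · have e2 := key ha' (p1' h2)
      exact ⟨fun h5 => absurd (h5.1 (p2 h1)) e2, fun h5 => absurd h5
        (not_lt.2 (mul_nonpos_of_nonpos_of_nonneg h1.le h2.le))⟩
    · have e1 := key ha (p1 h1)
      exact ⟨fun h5 => absurd (h5.2 (p2' h2)) e1, fun h5 => absurd h5
        (not_lt.2 (mul_nonpos_of_nonneg_of_nonpos h1.le h2.le))⟩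
    · have e1 := key ha (p1 h1)
      have e2 := key ha' (p1' h2)
      exact ⟨fun _ => mul_pos h1 h2, fun _ => ⟨fun h5 => absurd h5 e1,
        fun h5 => absurd h5 e2⟩⟩

/-- no `ab`-point of `S(z)` is parallel to a limit of `cd`-arcs -/
theorem Irr.cr_ne_zero (h : Irr U T) {z q v : ℂ} {a b c d : Fin k} (hz : DPt T z a b c d)
    (hq : dist q z = 1) (hv : dist v z = 1) (ha : a ∈ T v) (hb : b ∈ T v) (hc : c ∈ T q)
    (hd : d ∈ T q) (hne : q ≠ v) : cr (q - z) (v - z) ≠ 0 := by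
  refine cr_ne_of hq hv hne fun h1 => ?_
  have e : 2 * z - v = q := by linear_combination -h1
  exact h.anti hz hv (h.sub _ ha) (h.sub _ hb) (by rw [e]; exact h.sub _ hc)
    (by rw [e]; exact h.sub _ hd)

/-- **(LP2)** for a limit `q` of exact `cd`-arcs -/
theorem Irr.sd_iff_acc (h : Irr U T) {z q v v' : ℂ} {a b c d : Fin k} (hz : DPt T z a b c d)
    (hq : Acc T z {c, d} q) (hv : dist v z = 1) (hv' : dist v' z = 1) (ha : a ∈ T v)
    (hb : b ∈ T v) (ha' : a ∈ T v') (hb' : b ∈ T v') (hne : q ≠ v) (hne' : q ≠ v') :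
    (Sd U z v a b ↔ Sd U z v' a b) ↔ 0 < cr (q - z) (v - z) * cr (q - z) (v' - z) := by
  have hqz : dist q z = 1 := hq.dist
  have hc : c ∈ T q := h.acc_sub hq (by simp)
  have hd : d ∈ T q := h.acc_sub hq (by simp)
  have h0 := h.cr_ne_zero hz hqz hv ha hb hc hd hne
  have h0' := h.cr_ne_zero hz hqz hv' ha' hb' hc hd hne'
  have hcont : ∀ V : ℂ, Continuous fun g : ℂ => cr (g - z) (V - z) := by
    intro V; unfold cr; fun_prop
  have key : ∀ V : ℂ, cr (q - z) (V - z) ≠ 0 →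
      ∀ᶠ g in 𝓝 q, 0 < cr (g - z) (V - z) * cr (q - z) (V - z) := by
    intro V hV
    have h1 : Continuous fun g : ℂ => cr (g - z) (V - z) * cr (q - z) (V - z) :=
      (hcont V).mul continuous_const
    have h2 : 0 < cr (q - z) (V - z) * cr (q - z) (V - z) := mul_self_pos.2 hV
    exact h1.continuousAt.eventually (Ioi_mem_nhds h2)
  obtain ⟨g, ⟨k1, k2⟩, hgz, hgT⟩ := hq _ ((key v h0).and (key v' h0'))
  have hg : Arc T z g {c, d} := ⟨hgz, hgT⟩
  have g0 : cr (g - z) (v - z) ≠ 0 := fun h5 => by rw [h5, zero_mul] at k1; exact lt_irrefl _ k1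
  have g0' : cr (g - z) (v' - z) ≠ 0 := fun h5 => by rw [h5, zero_mul] at k2; exact lt_irrefl _ k2
  rw [h.sd_iff hz hg hv hv' ha ha' g0 g0']
  constructor
  · intro h5
    have h6 := mul_pos (mul_pos k1 k2) h5
    have e : cr (g - z) (v - z) * cr (q - z) (v - z) * (cr (g - z) (v' - z) * cr (q - z) (v' - z)) *
        (cr (g - z) (v - z) * cr (g - z) (v' - z)) =
        (cr (g - z) (v - z) * cr (g - z) (v' - z)) ^ 2 *
          (cr (q - z) (v - z) * cr (q - z) (v' - z)) := by ring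
    rw [e] at h6
    by_contra h7
    exact absurd h6 (not_lt.2 (mul_nonpos_of_nonneg_of_nonpos (sq_nonneg _) (not_lt.1 h7)))
  · intro h5
    have h6 := mul_pos (mul_pos k1 k2) h5
    have e : cr (g - z) (v - z) * cr (q - z) (v - z) * (cr (g - z) (v' - z) * cr (q - z) (v' - z)) *
        (cr (q - z) (v - z) * cr (q - z) (v' - z)) =
        (cr (q - z) (v - z) * cr (q - z) (v' - z)) ^ 2 *
          (cr (g - z) (v - z) * cr (g - z) (v' - z)) := by ring
    rw [e] at h6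
    by_contra h7
    exact absurd h6 (not_lt.2 (mul_nonpos_of_nonneg_of_nonpos (sq_nonneg _) (not_lt.1 h7)))

end Vale.Agent.P032.Six
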