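import Vale.Agent.P032.S5.H12.Inst0
import Vale.Agent.P032.S5.H813.ArcF

/-!
# P032: no complementary ends on the circles of the two-pair centres of a clean family
-/

open Set Filter Topology Metric

noncomputable section

namespace Vale.Agent.P032.Six

open Vale.Agent.P032.Net.H672

variable {U : Fin 6 → Set ℂ} {T : ℂ → Set (Fin 6)}

/-- the arc fields -/
theorem arcFields (h : Irr U T) (h4 : ∀ z, (T z).ncard ≤ 4)
    (hu : ∀ z y, (T z).ncard = 4 → (T y).ncard = 4 → dist z y ≠ 1) : ArcFields U T (AA T) where
  arc_ex := EE.fld_ex h fun z y hz hy => by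
    by_contra hcon
    exact hu z y hz (by have := h4 y; omega) (by rw [dist_comm]; exact hy)
  arc_end := EE.fld_end
  arc_pair := EE.fld_pair
  arc_len := EE.fld_len h h4
  arc_uniq := EE.fld_uniq h h4
  arc_symm := EE.fld_symm
  arc_ori := EE.fld_ori h h4
  arc_inn := EE.fld_inn h

/-- **No complementary ends** in a family with at most four colours and without adjacent
four-coloured points -/
theorem EE.no_compl (h : Irr U T) (h4 : ∀ z, (T z).ncard ≤ 4)
    (hu : ∀ z y, (T z).ncard = 4 → (T y).ncard = 4 → Dist.dist z y ≠ 1) {z v q : ℂ}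
    (hv : EE T z v) (hq : EE T z q) (hc : T q = (T v)ᶜ) : False :=
  (dnet_EE h h4 hu (arcFields h h4 hu)).false hv hq hc

end Vale.Agent.P032.Six
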