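import Vale.Agent.P032.S5.H12.LP3E
import Vale.Agent.P032.Net.H672.NoD

/-!
# P032: no complementary ends in a clean family, with the arc relation as a parameter
-/

open Set Filter Topology Metric

noncomputable section

namespace Vale.Agent.P032.Six

open Vale.Agent.P032.Net.H672

variable {U : Fin 6 → Set ℂ} {T : ℂ → Set (Fin 6)}

/-- the fields of `DNet` on arcs -/
structure ArcFields (U : Fin 6 → Set ℂ) (T : ℂ → Set (Fin 6)) (A : ℂ → ℂ → ℂ → Prop) : Prop where
  arc_ex : ∀ {z v}, Full T (EE T) z v → ∃ v', A z v v'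
  arc_end : ∀ {z v v'}, Full T (EE T) z v → A z v v' → EE T z v'
  arc_pair : ∀ {z v v'}, Full T (EE T) z v → A z v v' → T v' ∩ T z = T v ∩ T z
  arc_len : ∀ {z v v'}, Full T (EE T) z v → A z v v' → ∃ l : ℝ, 0 < l ∧ l ≤ Real.pi / 3 ∧
    v' - z = (v - z) * Complex.exp (-((ore T z v * l : ℝ) : ℂ) * Complex.I)
  arc_uniq : ∀ {z v v' v''}, Full T (EE T) z v → A z v v' → A z v v'' → v' = v''
  arc_symm : ∀ {z v v'}, Full T (EE T) z v → Full T (EE T) z v' → A z v v' → A z v' v
  arc_ori : ∀ {z v v'}, Full T (EE T) z v → Full T (EE T) z v' → A z v v' →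
    ore T z v' = - ore T z v
  arc_inn : ∀ {z v v'}, Full T (EE T) z v → Full T (EE T) z v' → A z v v' →
    inn U T z v' = inn U T z v

theorem dnet_EE (h : Irr U T) (h4 : ∀ z, (T z).ncard ≤ 4)
    (hu : ∀ z y, (T z).ncard = 4 → (T y).ncard = 4 → dist z y ≠ 1) {A : ℂ → ℂ → ℂ → Prop}
    (F : ArcFields U T A) : DNet T (EE T) A (ore T) (inn U T) where
  net := net_EE h h4 fun z y hy hz => by
    by_contra hcon
    exact hu z y hz (by have := h4 y; omega) (by rw [dist_comm]; exact hy)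
  card_z := fun hv => hv.card_z
  card_v := fun hv => hv.card_v
  card_i := fun hv => hv.card_i'
  cov := fun hv hq hc => hv.cov h h4 hq hc
  ori := fun {z v} _ => ore_or T z v
  inn_mem := fun hv => hv.inn_mem h
  LP1 := fun hv hq hc => hv.lp1 h h4 hq hc
  LP2 := fun hq hv hv' h1 h2 => hq.1.lp2 h hv.1 hv'.1 h1 h2
  LP3 := fun hv hq hc hv' hp hc' hcz hcw => hv.lp3 h h4 hq hc hv' hp hc' hcz hcw
  arc_ex := F.arc_ex
  arc_end := F.arc_end
  arc_pair := F.arc_pair
  arc_len := F.arc_len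
  arc_uniq := F.arc_uniq
  arc_symm := F.arc_symm
  arc_ori := F.arc_ori
  arc_inn := F.arc_inn
  auto := fun hv hq hc hm hTm => hv.auto h h4 hq hc hm hTm
  common := fun e1 _ e3 e1' _ e3' hne hcv d d' n s s' =>
    e1.common_clean h h4 hu e3 e1' e3' hne hcv d d' n s s'
  lemX := fun hu' hpu hpr ht hT => hu'.lemX h hpu hpr ht hT

end Vale.Agent.P032.Six
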