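import Vale.Agent.P032.S5.H12.NetE
import Vale.Agent.P032.S5.H172.LP3
import Vale.Agent.P032.S5.H824.ComF

/-!
# P032: the third edge at a vertex, over `EE`
-/

open Set Filter Topology Metric

noncomputable section

namespace Vale.Agent.P032.Six

variable {U : Fin 6 → Set ℂ} {T : ℂ → Set (Fin 6)} {z v q c p m : ℂ}

/-- one centre per pair, over `EE` -/
theorem EE.unique_pair (h : Irr U T) {z' q' : ℂ} (h1 : EE T z v) (h2 : EE T z' v)
    (g1 : EE T z q) (hc : T q = (T v)ᶜ) (g2 : EE T z' q') (hc' : T q' = (T v)ᶜ)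
    (hP : T z ∩ T v = T z' ∩ T v) : z = z' :=
  h.en_unique h1.card_v (h1.en rfl) (h2.en rfl) (g1.en hc) (g2.en hc') hP

/-- the field `LP3` -/
theorem EE.lp3 (h : Irr U T) (h4 : ∀ z, (T z).ncard ≤ 4) (hv : EE T z v) (hq : EE T z q)
    (hc : T q = (T v)ᶜ) (hv' : EE T c v) (hp : EE T c p) (hc' : T p = (T v)ᶜ) (hcz : c ≠ z)
    (hcw : c ≠ v + q - z) : ∃ a b : ℝ, 0 ≤ a ∧ 0 ≤ b ∧
      ((ore T c v : ℝ) : ℂ) * (c - v) + (a : ℂ) * (((ore T z v : ℝ) : ℂ) * (z - v))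
        + (b : ℂ) * (((ore T (v + q - z) v : ℝ) : ℂ) * (q - z)) = 0 := by
  have hwv := hv.rh h h4 hq hc
  have hwq := hv.rh' h h4 hq hc
  have hop := hv.anti h hq hc
  have hvq : v ≠ q := (hv.en rfl).ne hv.card_v (hq.en hc)
  have hzw : z ≠ v + q - z := fun h5 => hop (by linear_combination -h5)
  have := h.lp3 (ore_spec hv.1) (ore_spec hwv.1) (ore_spec hv'.1) hv.2 hwv.2 hzw
    (fun h5 => hvq (by linear_combination -h5))
    (fun h5 => hzw (hv.unique_pair h hwv hq hc hwq hc h5))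
    (fun h5 => hcz (hv'.unique_pair h hv hp hc' hq hc h5))
    (fun h5 => hcw (hv'.unique_pair h hwv hp hc' hwq hc h5))
  rw [show v + q - z - v = q - z by ring] at this
  exact this

/-- the field `lemX` -/
theorem EE.lemX (h : Irr U T) {u r : ℂ} {t : Fin 6} (hu : EE T z u) (hpu : Dist.dist p u = 1)
    (hpr : Dist.dist p r = 1) (ht : t ∈ T r) (hT : T p ⊆ insert t (T u)) :
    r = u ∨ r + u = 2 * p :=
  h.lemmaX hpu hu.card_v.le hT hpr (h.sub _ ht)

end Vale.Agent.P032.Six
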