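import Mathlib

/-!
# P032: abstract networks of D-points (helper394's steps (1) and (2))

`TE z v` : `v` is a (clean) T-end of the circle about the centre `z`;
`CE z q` : `q` is a (clean) T^c-end of the circle about the centre `z`.
Pure plane geometry, nothing about colours.
-/

namespace Vale.Agent.P032.S5.H12

/-- the determinant of two plane vectors -/
def det (x y : ℂ) : ℝ := x.re * y.im - x.im * y.re

/-- the lines of `a, b` do not interleave with the lines of `c, d` (this is `0 < Sep a b c d`) -/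
def Sep (a b c d : ℂ) : ℝ := det a c * det a d * (det b c * det b d)

theorem Sep_neg1 (a b c d : ℂ) : Sep (-a) b c d = Sep a b c d := by
  unfold Sep det; simp only [Complex.neg_re, Complex.neg_im]; ring

theorem Sep_neg2 (a b c d : ℂ) : Sep a (-b) c d = Sep a b c d := by
  unfold Sep det; simp only [Complex.neg_re, Complex.neg_im]; ring

theorem Sep_neg3 (a b c d : ℂ) : Sep a b (-c) d = Sep a b c d := by
  unfold Sep det; simp only [Complex.neg_re, Complex.neg_im]; ring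

theorem Sep_neg4 (a b c d : ℂ) : Sep a b c (-d) = Sep a b c d := by
  unfold Sep det; simp only [Complex.neg_re, Complex.neg_im]; ring

theorem Sep_swap (a b c d : ℂ) : Sep c d a b = Sep a b c d := by
  unfold Sep det; ring

theorem Sep_comm12 (a b c d : ℂ) : Sep b a c d = Sep a b c d := by
  unfold Sep det; ring

theorem Sep_comm34 (a b c d : ℂ) : Sep a b d c = Sep a b c d := by
  unfold Sep det; ring

/-- exactly one of the three pairings of four lines interleaves -/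
theorem three_pairings {a b c d : ℂ} (h1 : 0 < Sep a b c d) (h2 : 0 < Sep a c b d)
    (h3 : 0 < Sep a d b c) : False := by
  have h : Sep a b c d * Sep a c b d * Sep a d b c =
      -(det a b * det a c * det a d * det b c * det b d * det c d) ^ 2 := by
    unfold Sep det; ring
  have h4 : 0 < Sep a b c d * Sep a c b d * Sep a d b c := by positivity
  have h5 := sq_nonneg (det a b * det a c * det a d * det b c * det b d * det c d)
  linarith

/-- a network of centres and ends of two complementary types -/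
structure Net where
  /-- `v` is a T-end of the circle about `z` -/
  TE : ℂ → ℂ → Prop
  /-- `q` is a T^c-end of the circle about `z` -/
  CE : ℂ → ℂ → Prop
  unitT : ∀ {z v}, TE z v → ‖v - z‖ = 1
  unitC : ∀ {z q}, CE z q → ‖q - z‖ = 1
  rhT : ∀ {z v q}, TE z v → CE z q → TE (v + q - z) v
  rhC : ∀ {z v q}, TE z v → CE z q → CE (v + q - z) q
  cT : ∀ {v z₁ z₂ z₃ z₄}, TE z₁ v → TE z₂ v → TE z₃ v → TE z₄ v →
    z₁ ≠ z₂ → z₁ ≠ z₃ → z₂ ≠ z₃ → z₄ = z₁ ∨ z₄ = z₂ ∨ z₄ = z₃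
  cC : ∀ {q z₁ z₂ z₃ z₄}, CE z₁ q → CE z₂ q → CE z₃ q → CE z₄ q →
    z₁ ≠ z₂ → z₁ ≠ z₃ → z₂ ≠ z₃ → z₄ = z₁ ∨ z₄ = z₂ ∨ z₄ = z₃
  anti : ∀ {z v q}, TE z v → CE z q → v + q ≠ 2 * z
  neTC : ∀ {z v q}, TE z v → CE z q → v ≠ q
  sep : ∀ {z v v' q q'}, TE z v → TE z v' → CE z q → CE z q' → v ≠ v' → q ≠ q' →
    0 < Sep (v - z) (v' - z) (q - z) (q' - z)
  L2 : ∀ {z v q}, TE z v → CE z q → (∀ x, TE z x → x = v) → (∀ y, CE z y → y = q) → False
  L3 : ∀ {z v q q'}, TE z v → CE z q → CE z q' → q ≠ q' → (∀ x, TE z x → x = v) →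
    (∀ y, CE z y → y = q ∨ y = q') → ∃ α β γ : ℝ, 0 < α ∧ 0 < β ∧ 0 < γ ∧
      (α : ℂ) * (v - z) + β * (q - z) + γ * (q' - z) = 0
  L3' : ∀ {z v v' q}, TE z v → TE z v' → CE z q → v ≠ v' → (∀ x, TE z x → x = v ∨ x = v') →
    (∀ y, CE z y → y = q) → ∃ α β γ : ℝ, 0 < α ∧ 0 < β ∧ 0 < γ ∧
      (α : ℂ) * (q - z) + β * (v - z) + γ * (v' - z) = 0

namespace Net

variable (N : Net)

/-- exchange the two types -/
def swap : Net where
  TE := N.CE
  CE := N.TE
  unitT := N.unitC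
  unitC := N.unitT
  rhT := fun h1 h2 => by rw [add_comm]; exact N.rhC h2 h1
  rhC := fun h1 h2 => by rw [add_comm]; exact N.rhT h2 h1
  cT := N.cC
  cC := N.cT
  anti := fun h1 h2 => by rw [add_comm]; exact N.anti h2 h1
  neTC := fun h1 h2 => (N.neTC h2 h1).symm
  sep := fun h1 h2 h3 h4 h5 h6 => by rw [Sep_swap]; exact N.sep h3 h4 h1 h2 h6 h5
  L2 := fun h1 h2 h3 h4 => N.L2 h2 h1 h4 h3
  L3 := fun h1 h2 h3 h4 h5 h6 => N.L3' h2 h3 h1 h4 h6 h5
  L3' := fun h1 h2 h3 h4 h5 h6 => N.L3 h3 h1 h2 h4 h6 h5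

/-- `v` is a T-vertex with three centres and three neighbours -/
structure Tri (v c₁ c₂ c₃ : ℂ) : Prop where
  t1 : N.TE c₁ v
  t2 : N.TE c₂ v
  t3 : N.TE c₃ v
  d12 : c₁ ≠ c₂
  d13 : c₁ ≠ c₃
  d23 : c₂ ≠ c₃
  q12 : N.CE c₁ (c₁ + c₂ - v)
  q13 : N.CE c₁ (c₁ + c₃ - v)
  q23 : N.CE c₂ (c₂ + c₃ - v)

variable {N}

/-- the common ends of the two centres of a rhombus -/
theorem rh_mem {z w v : ℂ} (hz : N.TE z v) (h : N.CE z (z + w - v)) : N.CE w (z + w - v) := by
  have h1 := N.rhC hz h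
  have h2 : v + (z + w - v) - z = w := by ring
  rwa [h2] at h1

theorem rh_memT {z w q : ℂ} (hz : N.CE z q) (h : N.TE z (z + w - q)) : N.TE w (z + w - q) :=
  rh_mem (N := N.swap) hz h

theorem Tri.swap12 {v c₁ c₂ c₃ : ℂ} (h : N.Tri v c₁ c₂ c₃) : N.Tri v c₂ c₁ c₃ where
  t1 := h.t2
  t2 := h.t1
  t3 := h.t3
  d12 := h.d12.symm
  d13 := h.d23
  d23 := h.d13
  q12 := by rw [add_comm c₂ c₁]; exact rh_mem h.t1 h.q12
  q13 := h.q23
  q23 := h.q13

theorem Tri.swap23 {v c₁ c₂ c₃ : ℂ} (h : N.Tri v c₁ c₂ c₃) : N.Tri v c₁ c₃ c₂ where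
  t1 := h.t1
  t2 := h.t3
  t3 := h.t2
  d12 := h.d13
  d13 := h.d12
  d23 := h.d23.symm
  q12 := h.q13
  q13 := h.q12
  q23 := by rw [add_comm c₃ c₂]; exact rh_mem h.t2 h.q23

/-- the T^c-ends of a centre of a three-neighbour vertex -/
theorem Tri.ends {v c₁ c₂ c₃ : ℂ} (h : N.Tri v c₁ c₂ c₃) {y : ℂ} (hy : N.CE c₁ y) :
    y = c₁ + c₂ - v ∨ y = c₁ + c₃ - v := by
  have h1 := N.rhT h.t1 hy
  rcases N.cT h.t1 h.t2 h.t3 h1 h.d12 h.d13 h.d23 with h2 | h2 | h2
  · exact absurd (by linear_combination h2 : v + y = 2 * c₁) (N.anti h.t1 hy)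
  · left; linear_combination h2
  · right; linear_combination h2

/-- two vectors of norm one which are real multiples of each other -/
theorem unit_par {a b : ℂ} (ha : ‖a‖ = 1) (hb : ‖b‖ = 1) {k : ℝ} (h : a = k * b) :
    a = b ∨ a = -b := by
  have h1 : ‖a‖ = |k| * ‖b‖ := by rw [h, norm_mul, Complex.norm_real, Real.norm_eq_abs]
  rw [ha, hb, mul_one] at h1
  rcases (abs_eq (by norm_num : (0:ℝ) ≤ 1)).1 h1.symm with h2 | h2
  · left; rw [h, h2]; simp
  · right; rw [h, h2]; simp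

/-- (a): at most one of the three centres has a single T-end -/
theorem Tri.not_one {v c₁ c₂ c₃ : ℂ} (h : N.Tri v c₁ c₂ c₃) (h1 : ∀ x, N.TE c₁ x → x = v)
    (h2 : ∀ x, N.TE c₂ x → x = v) : False := by
  have hd : c₁ + c₂ - v ≠ c₁ + c₃ - v := fun hh => h.d23 (by linear_combination hh)
  have hd' : c₂ + c₁ - v ≠ c₂ + c₃ - v := fun hh => h.d13 (by linear_combination hh)
  obtain ⟨α, β, γ, hα, hβ, hγ, e1⟩ := N.L3 h.t1 h.q12 h.q13 hd h1 (fun y hy => h.ends hy)
  obtain ⟨α', β', γ', hα', hβ', hγ', e2⟩ := N.L3 h.t2 h.swap12.q12 h.swap12.q13 hd' h2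
    (fun y hy => h.swap12.ends hy)
  have f1 : (β : ℂ) * (c₂ - v) + γ * (c₃ - v) = α * (c₁ - v) := by linear_combination e1
  have f2 : (β' : ℂ) * (c₁ - v) + γ' * (c₃ - v) = α' * (c₂ - v) := by linear_combination e2
  -- `c₃ - v` is a real multiple of `c₂ - v`
  have hk : 0 < β' * γ + α * γ' := by positivity
  have f3 : c₃ - v = ((α * α' - β * β') / (β' * γ + α * γ') : ℝ) * (c₂ - v) := by
    have hk' : ((β' * γ + α * γ' : ℝ) : ℂ) ≠ 0 := by exact_mod_cast hk.ne'
    have f4 : ((β' * γ + α * γ' : ℝ) : ℂ) * (c₃ - v) = ((α * α' - β * β' : ℝ) : ℂ) * (c₂ - v) := by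
      push_cast
      linear_combination (β' : ℂ) * f1 + (α : ℂ) * f2
    rw [Complex.ofReal_div, div_mul_eq_mul_div, ← f4, mul_div_assoc, mul_comm, div_mul_cancel₀]
    exact hk'
  have n2 : ‖c₂ - v‖ = 1 := by rw [norm_sub_rev]; exact N.unitT h.t2
  have n3 : ‖c₃ - v‖ = 1 := by rw [norm_sub_rev]; exact N.unitT h.t3
  rcases unit_par n3 n2 f3 with h3 | h3
  · exact h.d23 (by linear_combination -h3)
  · exact N.neTC h.t2 h.q23 (by linear_combination -h3)

/-- second T-ends at the two centres of a rhombus have the same direction -/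
theorem second {v c₁ c₂ x₁ x₂ : ℂ} (t1 : N.TE c₁ v) (_t2 : N.TE c₂ v) (d12 : c₁ ≠ c₂)
    (q12 : N.CE c₁ (c₁ + c₂ - v)) (hx1 : N.TE c₁ x₁) (n1 : x₁ ≠ v) (hx2 : N.TE c₂ x₂)
    (n2 : x₂ ≠ v) : x₂ - c₂ = x₁ - c₁ := by
  have q12' := rh_mem t1 q12
  have r1 := N.rhC hx1 q12
  have r2 := N.rhC hx2 q12'
  have a1 : c₁ ≠ x₁ + (c₁ + c₂ - v) - c₁ := fun hh =>
    N.anti hx1 q12 (by linear_combination -hh)
  have a2 : c₂ ≠ x₁ + (c₁ + c₂ - v) - c₁ := fun hh => n1 (by linear_combination -hh)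
  rcases N.cC q12 q12' r1 r2 d12 a1 a2 with h | h | h
  · exact absurd (by linear_combination h) n2
  · exact absurd (by linear_combination h) (N.anti hx2 q12')
  · linear_combination h

/-- (b): at most one of the three centres has a second T-end -/
theorem Tri.not_two {v c₁ c₂ c₃ x₁ x₂ : ℂ} (h : N.Tri v c₁ c₂ c₃) (hx1 : N.TE c₁ x₁)
    (n1 : x₁ ≠ v) (hx2 : N.TE c₂ x₂) (n2 : x₂ ≠ v) : False := by
  have e2 := second h.t1 h.t2 h.d12 h.q12 hx1 n1 hx2 n2
  have q12' := h.swap12.q12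
  rw [add_comm c₂ c₁] at q12'
  have q13' : N.CE c₃ (c₁ + c₃ - v) := rh_mem h.t1 h.q13
  have q23' : N.CE c₃ (c₂ + c₃ - v) := rh_mem h.t2 h.q23
  have d1 : c₁ + c₂ - v ≠ c₁ + c₃ - v := fun hh => h.d23 (by linear_combination hh)
  have d2 : c₁ + c₂ - v ≠ c₂ + c₃ - v := fun hh => h.d13 (by linear_combination hh)
  have d3 : c₁ + c₃ - v ≠ c₂ + c₃ - v := fun hh => h.d12 (by linear_combination hh)
  -- the separation at `c₁` and at `c₂`
  have s1 := N.sep h.t1 hx1 h.q12 h.q13 n1.symm d1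
  have s2 := N.sep h.t2 hx2 q12' h.q23 n2.symm d2
  have s1' : 0 < Sep (c₁ - v) (x₁ - c₁) (c₂ - v) (c₃ - v) := by
    rw [← Sep_neg1]
    have g1 : -(c₁ - v) = v - c₁ := by ring
    have g2 : c₁ + c₂ - v - c₁ = c₂ - v := by ring
    have g3 : c₁ + c₃ - v - c₁ = c₃ - v := by ring
    rw [g2, g3] at s1
    rwa [g1]
  have s2' : 0 < Sep (c₂ - v) (x₁ - c₁) (c₁ - v) (c₃ - v) := by
    rw [← Sep_neg1]
    have g1 : -(c₂ - v) = v - c₂ := by ring
    have g2 : c₁ + c₂ - v - c₂ = c₁ - v := by ring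
    have g3 : c₂ + c₃ - v - c₂ = c₃ - v := by ring
    rw [g2, g3, e2] at s2
    rwa [g1]
  by_cases h3 : ∀ x, N.TE c₃ x → x = v
  swap
  · push Not at h3
    obtain ⟨x₃, hx3, n3⟩ := h3
    have e3 := second h.t1 h.t3 h.d13 h.q13 hx1 n1 hx3 n3
    have s3 := N.sep h.t3 hx3 q13' q23' n3.symm d3
    have s3' : 0 < Sep (c₃ - v) (x₁ - c₁) (c₁ - v) (c₂ - v) := by
      rw [← Sep_neg1]
      have g1 : -(c₃ - v) = v - c₃ := by ring
      have g2 : c₁ + c₃ - v - c₃ = c₁ - v := by ring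
      have g3 : c₂ + c₃ - v - c₃ = c₂ - v := by ring
      rw [g2, g3, e3] at s3
      rwa [g1]
    rw [Sep_comm12] at s1' s2' s3'
    exact three_pairings s1' s2' s3'
  · -- the centre `r₁₃`
    have r13T := N.rhT hx1 h.q13
    have r13C := N.rhC hx1 h.q13
    have r12T := N.rhT hx1 h.q12
    have r12C := N.rhC hx1 h.q12
    set r13 := x₁ + (c₁ + c₃ - v) - c₁ with hr13
    set r12 := x₁ + (c₁ + c₂ - v) - c₁ with hr12
    have a13 : c₁ ≠ r13 := fun hh => N.anti hx1 h.q13 (by rw [hr13] at hh; linear_combination -hh)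
    have a12 : c₁ ≠ r12 := fun hh => N.anti hx1 h.q12 (by rw [hr12] at hh; linear_combination -hh)
    have b13 : c₃ ≠ r13 := fun hh => n1 (by rw [hr13] at hh; linear_combination -hh)
    have r1213 : r12 ≠ r13 := fun hh => h.d23 (by rw [hr12, hr13] at hh; linear_combination hh)
    have u13 : ∀ y, N.TE r13 y → y = x₁ := by
      intro y hy
      have w1 := N.rhC hy r13C
      have w2 := N.rhT hy r13C
      rcases N.cC h.q13 q13' r13C w1 h.d13 a13 b13 with hh | hh | hh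
      · rw [hr13] at hh; linear_combination hh
      · exfalso
        rw [hh] at w2
        have hv := h3 y w2
        apply a13
        rw [hv] at hh
        linear_combination hh
      · exact absurd (by linear_combination hh) (N.anti hy r13C)
    obtain ⟨y', hy', ny'⟩ : ∃ y', N.CE r13 y' ∧ y' ≠ c₁ + c₃ - v := by
      by_contra hcon
      push Not at hcon
      exact N.L2 r13T r13C u13 hcon
    have w1 := N.rhT r13T hy'
    have w2 := N.rhC r13T hy'
    have hw : x₁ + y' - r13 = r12 := by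
      rcases N.cT hx1 r12T r13T w1 a12 a13 r1213 with hh | hh | hh
      · exact absurd (by rw [hr13] at hh; linear_combination hh) ny'
      · exact hh
      · exact absurd (by linear_combination hh) (N.anti r13T hy')
    rw [hw] at w2
    have hy2 : y' = r12 + r13 - x₁ := by linear_combination hw
    have x2T : N.TE r12 x₂ := by
      have w3 := N.rhT hx2 q12'
      have e : x₂ + (c₁ + c₂ - v) - c₂ = r12 := by rw [hr12]; linear_combination e2
      rwa [e] at w3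
    have nx : x₁ ≠ x₂ := fun hh => h.d12 (by rw [hh] at e2; linear_combination e2)
    have nq : c₁ + c₂ - v ≠ y' := by
      intro hh
      refine N.anti hx1 h.q13 ?_
      rw [hy2, hr12, hr13] at hh
      linear_combination -hh
    have s4 := N.sep r12T x2T r12C w2 nx nq
    have s4' : 0 < Sep (c₂ - v) (c₁ - v) (x₁ - c₁) (c₃ - v) := by
      have g1 : x₁ - r12 = -(c₂ - v) := by rw [hr12]; ring
      have g2 : x₂ - r12 = -(c₁ - v) := by rw [hr12]; linear_combination e2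
      have g3 : c₁ + c₂ - v - r12 = -(x₁ - c₁) := by rw [hr12]; ring
      have g4 : y' - r12 = c₃ - v := by rw [hy2, hr13]; ring
      rw [g1, g2, g3, g4, Sep_neg1, Sep_neg2, Sep_neg3] at s4
      exact s4
    -- {u₁,n|u₂,u₃}, {u₂,n|u₁,u₃}, {u₂,u₁|n,u₃}
    refine three_pairings (a := c₂ - v) (b := c₁ - v) (c := x₁ - c₁) (d := c₃ - v) s4' s2' ?_
    rw [Sep_swap]
    exact s1'

/-- **D3**: no vertex has three neighbours -/
theorem Tri.elim {v c₁ c₂ c₃ : ℂ} (h : N.Tri v c₁ c₂ c₃) : False := by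
  by_cases h1 : ∀ x, N.TE c₁ x → x = v
  · by_cases h2 : ∀ x, N.TE c₂ x → x = v
    · exact h.not_one h1 h2
    · by_cases h3 : ∀ x, N.TE c₃ x → x = v
      · exact h.swap23.not_one h1 h3
      · push Not at h2 h3
        obtain ⟨x₂, hx2, n2⟩ := h2
        obtain ⟨x₃, hx3, n3⟩ := h3
        exact h.swap12.swap23.not_two hx2 n2 hx3 n3
  · push Not at h1
    obtain ⟨x₁, hx1, n1⟩ := h1
    by_cases h2 : ∀ x, N.TE c₂ x → x = v
    · by_cases h3 : ∀ x, N.TE c₃ x → x = v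
      · exact h.swap12.swap23.not_one h2 h3
      · push Not at h3
        obtain ⟨x₃, hx3, n3⟩ := h3
        exact h.swap23.not_two hx1 n1 hx3 n3
    · push Not at h2
      obtain ⟨x₂, hx2, n2⟩ := h2
      exact h.not_two hx1 n1 hx2 n2

theorem Tri.elim' {q c₁ c₂ c₃ : ℂ} (h : N.swap.Tri q c₁ c₂ c₃) : False := h.elim

/-! ### (2): centres with two T-ends and two T^c-ends do not exist -/

/-- the other centre of a rhombus is different -/
theorem ne_second {z v q : ℂ} (h1 : N.TE z v) (h2 : N.CE z q) : z ≠ v + q - z := fun hh =>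
  N.anti h1 h2 (by linear_combination -hh)

/-- the centre opposite to `z` in a rhombus has a single T-end -/
theorem single_T {z v₁ v₂ q : ℂ} (h1 : N.TE z v₁) (h2 : N.TE z v₂) (hne : v₁ ≠ v₂)
    (hq : N.CE z q) {x : ℂ} (hx : N.TE (v₁ + q - z) x) : x = v₁ := by
  by_contra hcon
  have c1 := N.rhC h1 hq
  have c2 := N.rhC h2 hq
  have t1 := N.rhT h1 hq
  have t2 := N.rhT h2 hq
  have d12 := ne_second h1 hq
  have d13 := ne_second h2 hq
  have d23 : v₁ + q - z ≠ v₂ + q - z := fun hh => hne (by linear_combination hh)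
  have w1 := N.rhC hx c1
  have w2 := N.rhT hx c1
  rcases N.cC hq c1 c2 w1 d12 d13 d23 with hh | hh | hh
  · exact hcon (by linear_combination hh)
  · exact absurd (by linear_combination hh) (N.anti hx c1)
  · rw [hh] at w2
    have hx2 : x = v₁ + q - z + (v₂ + q - z) - q := by linear_combination hh
    refine Tri.elim' (N := N) (q := q) (c₁ := z) (c₂ := v₁ + q - z) (c₃ := v₂ + q - z)
      ⟨hq, c1, c2, d12, d13, d23, ?_, ?_, ?_⟩
    · show N.TE z (z + (v₁ + q - z) - q)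
      have e : z + (v₁ + q - z) - q = v₁ := by ring
      rw [e]; exact h1
    · show N.TE z (z + (v₂ + q - z) - q)
      have e : z + (v₂ + q - z) - q = v₂ := by ring
      rw [e]; exact h2
    · show N.TE (v₁ + q - z) (v₁ + q - z + (v₂ + q - z) - q)
      rw [← hx2]; exact hx

theorem single_C {z q₁ q₂ v : ℂ} (h1 : N.CE z q₁) (h2 : N.CE z q₂) (hne : q₁ ≠ q₂)
    (hv : N.TE z v) {y : ℂ} (hy : N.CE (v + q₁ - z) y) : y = q₁ := by
  rw [add_comm v q₁] at hy
  exact single_T (N := N.swap) h1 h2 hne hv hy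

/-- **(2)** no centre has two T-ends and two T^c-ends -/
theorem no22 {z v₁ v₂ q₁ q₂ : ℂ} (t1 : N.TE z v₁) (t2 : N.TE z v₂) (hv : v₁ ≠ v₂)
    (c1 : N.CE z q₁) (c2 : N.CE z q₂) (hq : q₁ ≠ q₂) : False :=
  N.L2 (N.rhT t1 c1) (N.rhC t1 c1) (fun _ hx => single_T t1 t2 hv c1 hx)
    (fun _ hy => single_C c1 c2 hq t1 hy)

/-- a centre has at most two T-ends if it has a T^c-end -/
theorem le_two {z v₁ v₂ v₃ q : ℂ} (hq : N.CE z q) (t1 : N.TE z v₁) (t2 : N.TE z v₂)
    (t3 : N.TE z v₃) (hv : v₁ ≠ v₂) : v₃ = v₁ ∨ v₃ = v₂ := by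
  have d12 := ne_second t1 hq
  have d13 := ne_second t2 hq
  have d23 : v₁ + q - z ≠ v₂ + q - z := fun hh => hv (by linear_combination hh)
  rcases N.cC hq (N.rhC t1 hq) (N.rhC t2 hq) (N.rhC t3 hq) d12 d13 d23 with hh | hh | hh
  · exact absurd (by linear_combination hh) (N.anti t3 hq)
  · left; linear_combination hh
  · right; linear_combination hh

/-- a centre of class (1,2) -/
structure Mid (N : Net) (z v q₁ q₂ : ℂ) : Prop where
  t : N.TE z v
  c1 : N.CE z q₁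
  c2 : N.CE z q₂
  ne : q₁ ≠ q₂
  uT : ∀ x, N.TE z x → x = v
  uC : ∀ y, N.CE z y → y = q₁ ∨ y = q₂

/-- two T^c-ends make a middle centre -/
theorem Mid.of {z v q₁ q₂ : ℂ} (t : N.TE z v) (c1 : N.CE z q₁) (c2 : N.CE z q₂)
    (ne : q₁ ≠ q₂) : Mid N z v q₁ q₂ where
  t := t
  c1 := c1
  c2 := c2
  ne := ne
  uT := fun x hx => by
    by_contra hcon
    exact no22 hx t hcon c1 c2 ne
  uC := fun y hy => le_two (N := N.swap) t c1 c2 hy ne

theorem Mid.symm {z v q₁ q₂ : ℂ} (h : Mid N z v q₁ q₂) : Mid N z v q₂ q₁ :=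
  ⟨h.t, h.c2, h.c1, h.ne.symm, h.uT, fun y hy => (h.uC y hy).symm⟩

/-- the side centres `v + q₁ - z`, `v + q₂ - z` of a middle centre have class (2,1) -/
theorem Mid.side {z v q₁ q₂ : ℂ} (h : Mid N z v q₁ q₂) :
    ∃ x, Mid N.swap (v + q₁ - z) q₁ v x := by
  have tT := N.rhT h.t h.c1
  have tC := N.rhC h.t h.c1
  have u : ∀ y, N.CE (v + q₁ - z) y → y = q₁ := fun y hy => single_C h.c1 h.c2 h.ne h.t hy
  obtain ⟨x, hx, nx⟩ : ∃ x, N.TE (v + q₁ - z) x ∧ x ≠ v := by
    by_contra hcon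
    push Not at hcon
    exact N.L2 tT tC hcon u
  exact ⟨x, Mid.of (N := N.swap) tC tT hx nx.symm⟩

/-- the three centres of a vertex with a middle centre -/
theorem Mid.centres {z v q₁ q₂ : ℂ} (h : Mid N z v q₁ q₂) {w : ℂ} (hw : N.TE w v) :
    w = z ∨ w = v + q₁ - z ∨ w = v + q₂ - z :=
  N.cT h.t (N.rhT h.t h.c1) (N.rhT h.t h.c2) hw (ne_second h.t h.c1) (ne_second h.t h.c2)
    (fun hh => h.ne (by linear_combination hh))

/-- **every T-vertex with a neighbour has a middle centre** -/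
theorem exists_mid {z v q : ℂ} (hv : N.TE z v) (hq : N.CE z q) :
    ∃ m q', Mid N m v q q' ∧ (m = z ∨ m = v + q - z) := by
  by_cases h1 : ∃ y, N.CE z y ∧ y ≠ q
  · obtain ⟨y, hy, ny⟩ := h1
    exact ⟨z, y, Mid.of hv hq hy ny.symm, Or.inl rfl⟩
  by_cases h2 : ∃ y, N.CE (v + q - z) y ∧ y ≠ q
  · obtain ⟨y, hy, ny⟩ := h2
    exact ⟨v + q - z, y, Mid.of (N.rhT hv hq) (N.rhC hv hq) hy ny.symm, Or.inr rfl⟩
  push Not at h1 h2
  exfalso
  have wT := N.rhT hv hq
  have wC := N.rhC hv hq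
  obtain ⟨v', hv', nv'⟩ : ∃ x, N.TE z x ∧ x ≠ v := by
    by_contra hcon
    push Not at hcon
    exact N.L2 hv hq hcon h1
  obtain ⟨v'', hv'', nv''⟩ : ∃ x, N.TE (v + q - z) x ∧ x ≠ v := by
    by_contra hcon
    push Not at hcon
    exact N.L2 wT wC hcon h2
  have c2 := N.rhC hv' hq
  have c3 := N.rhC hv'' wC
  have d12 := ne_second hv hq
  have d13 := ne_second hv' hq
  have d23 : v + q - z ≠ v' + q - z := fun hh => nv' (by linear_combination -hh)
  rcases N.cC hq wC c2 c3 d12 d13 d23 with hh | hh | hh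
  · exact nv'' (by linear_combination hh)
  · exact N.anti hv'' wC (by linear_combination hh)
  · have hx2 : v'' = v + q - z + (v' + q - z) - q := by linear_combination hh
    refine Tri.elim' (N := N) (q := q) (c₁ := z) (c₂ := v + q - z) (c₃ := v' + q - z)
      ⟨hq, wC, c2, d12, d13, d23, ?_, ?_, ?_⟩
    · show N.TE z (z + (v + q - z) - q)
      have e : z + (v + q - z) - q = v := by ring
      rw [e]; exact hv
    · show N.TE z (z + (v' + q - z) - q)
      have e : z + (v' + q - z) - q = v' := by ring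
      rw [e]; exact hv'
    · show N.TE (v + q - z) (v + q - z + (v' + q - z) - q)
      rw [← hx2]; exact hv''

end Net

end Vale.Agent.P032.S5.H12
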