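import Vale.Agent.P032.S5.H12.Fld2
import Vale.Agent.P032.S5.H824.Two

/-!
# P032: the network of the two-pair centres in a family without adjacent four-coloured points
-/

open Set Filter Topology Metric

noncomputable section

namespace Vale.Agent.P032.Six

variable {U : Fin 6 → Set ℂ} {T : ℂ → Set (Fin 6)} {X : Set (Fin 6)} {z v q m : ℂ}

/-- `EE` to `En` -/
theorem EE.en (hv : EE T z v) (hX : T v = X) : En T X z v := by
  obtain ⟨⟨o, ho, hd, h4, h3, h2, ε, hε, hg⟩, -⟩ := hv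
  subst hX
  exact ⟨rfl, h4, h2, hd, o, ε, ho, hε, hg⟩

/-- `En` to `EE` -/
theorem En.ee (hv : En T X z v) (hX : X.ncard = 3) (hp : ∃ p, Arc T z p (T z \ X)) :
    EE T z v := by
  obtain ⟨hT, h4, h2, hd, o, ε, ho, hε, hg⟩ := hv
  subst hT
  exact ⟨⟨o, ho, hd, h4, hX, h2, ε, hε, hg⟩, hp⟩

theorem EE.arc_compl (hv : EE T z v) (hX : T v = X) : ∃ p, Arc T z p (T z \ X) := by
  subst hX; exact hv.2

/-- both exact arcs at a centre with complementary ends -/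
theorem EE.arc_compl' (h : Irr U T) (hv : EE T z v) (hX : T v = X) :
    ∃ p, Arc T z p (T z \ Xᶜ) := by
  subst hX
  obtain ⟨o, ho⟩ := hv.1
  obtain ⟨p, hp⟩ := ho.arc h
  refine ⟨p, ?_⟩
  have e : T z \ (T v)ᶜ = T z ∩ T v := by rw [Set.sdiff_compl]
  rw [e]; exact hp

/-- clean ends -/
theorem EE.cln (h : Irr U T) (h4 : ∀ z, (T z).ncard ≤ 4) (hv : EE T z v) (hq : EE T z q)
    (hc : T q = (T v)ᶜ) (hm : Dist.dist m z = 1) (hTm : T m = T v) :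
    Vale.Agent.P032.S5.H349.Cln T z m := by
  obtain ⟨a, b, c, d, e, f, C, -, -⟩ := exists_ncfg h hv hm hTm hq.dist hc (h4 _)
  obtain ⟨o, hE, -⟩ := C.lp1 h
  have hP := C.inter
  have h1 := hE.arc.and (hE.after.mono fun t ht => ht.2)
  obtain ⟨ε, hε, hs⟩ := mem_nhdsGT_iff_exists_Ioo_subset.1 h1
  refine ⟨o, ε, hE.o1, hε, fun t ht => ?_, fun t ht => ?_⟩
  · have := (hs ht).1
    rw [neg_mul] at this
    rw [hP]; exact this
  · rw [hP]; exact (hs ht).2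

/-- only the two pairs occur on the circle -/
theorem EE.pairs (h : Irr U T) (hv : EE T z v) (hX : T v = X) :
    ∀ y, Dist.dist y z = 1 → (∀ᶠ q in 𝓝[sphere z 1] y, T q = T y) → T y ⊆ T z →
      T y = T z ∩ X ∨ T y = T z ∩ Xᶜ := by
  subst hX
  obtain ⟨a, b, c, d, h1, h2⟩ := hv.names
  intro y hy hcon hsub
  rcases h.twoPairs (hv.dpt h h1 h2) y hy hcon hsub with h3 | h3
  · left; rw [h3, h1]
  · right; rw [h3, ← h2]; rfl

/-- the network -/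
theorem net_EE (h : Irr U T) (h4 : ∀ z, (T z).ncard ≤ 4)
    (hu : ∀ z y, dist y z = 1 → (T z).ncard = 4 → (T y).ncard ≤ 3) (X : Set (Fin 6)) :
    Vale.Agent.P032.Net.H672.Net (fun z v => EE T z v ∧ T v = X)
      (fun z q => EE T z q ∧ T q = Xᶜ) := by
  have hX3 : ∀ {z v}, EE T z v ∧ T v = X → X.ncard = 3 := by
    rintro z v ⟨h1, rfl⟩; exact h1.card_v
  have hX3' : ∀ {z v}, EE T z v ∧ T v = Xᶜ → X.ncard = 3 := by
    rintro z v ⟨h1, h2⟩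
    have h3 := h1.card_v
    rw [h2] at h3
    have := Set.ncard_add_ncard_compl X
    rw [Nat.card_eq_fintype_card, Fintype.card_fin] at this
    omega
  have hc : ∀ {z v z' q}, EE T z v ∧ T v = X → EE T z' q ∧ T q = Xᶜ → T q = (T v)ᶜ := by
    rintro z v z' q ⟨-, h1⟩ ⟨-, h2⟩
    rw [h1, h2]
  have hc' : ∀ {z v z' q}, EE T z v ∧ T v = X → EE T z' q ∧ T q = Xᶜ → T v = (T q)ᶜ := by
    rintro z v z' q ⟨-, h1⟩ ⟨-, h2⟩
    rw [h1, h2, compl_compl]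
  have back : ∀ {z v q v'}, EE T z v ∧ T v = X → EE T z q ∧ T q = Xᶜ → En T X z v' →
      EE T z v' ∧ T v' = X := fun hv hq hv' =>
    ⟨hv'.ee (hX3 hv) (hv.1.arc_compl hv.2), hv'.1⟩
  have back' : ∀ {z v q v'}, EE T z v ∧ T v = X → EE T z q ∧ T q = Xᶜ → En T Xᶜ z v' →
      EE T z v' ∧ T v' = Xᶜ := fun hv hq hv' =>
    ⟨hv'.ee (ncard_compl_three (hX3 hv)) (hq.1.arc_compl hq.2), hv'.1⟩
  have h3 : ∀ {z v}, EE T z v → ∀ y, dist y z = 1 → (T y).ncard ≤ 3 := fun hv y hy =>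
    hu _ y hy hv.card_z
  have hcl : ∀ {z v q}, EE T z v ∧ T v = X → EE T z q ∧ T q = Xᶜ → ∀ m, dist m z = 1 →
      T m = X ∨ T m = Xᶜ → Vale.Agent.P032.S5.H349.Cln T z m := by
    rintro z v q hv hq m hm (h5 | h5)
    · exact hv.1.cln h h4 hq.1 (hc hv hq) hm (h5.trans hv.2.symm)
    · exact hq.1.cln h h4 hv.1 (hc' hv hq) hm (h5.trans hq.2.symm)
  refine
    { dist_t := fun hv => hv.1.dist
      dist_c := fun hq => hq.1.dist
      ne := fun {z z' v} hv hq => ?_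
      rh := fun {z v q} hv hq => ⟨⟨hv.1.rh h h4 hq.1 (hc hv hq), hv.2⟩,
        ⟨hv.1.rh' h h4 hq.1 (hc hv hq), hq.2⟩⟩
      three_t := ?_
      three_c := ?_
      sep := ?_
      L2 := ?_
      L3 := ?_
      L3' := ?_ }
  · have h5 := (hv.1.en hv.2).ne (hX3 hv) (hq.1.en hq.2)
    exact h5 rfl
  · rintro v z₁ z₂ z₃ z₄ ⟨a1, q1, b1⟩ ⟨a2, q2, b2⟩ ⟨a3, q3, b3⟩ ⟨a4, q4, b4⟩
    exact h.en_three (hX3 a1) ⟨a1.1.en a1.2, q1, b1.1.en b1.2⟩ ⟨a2.1.en a2.2, q2, b2.1.en b2.2⟩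
      ⟨a3.1.en a3.2, q3, b3.1.en b3.2⟩ ⟨a4.1.en a4.2, q4, b4.1.en b4.2⟩
  · rintro q z₁ z₂ z₃ z₄ ⟨a1, q1, b1⟩ ⟨a2, q2, b2⟩ ⟨a3, q3, b3⟩ ⟨a4, q4, b4⟩
    have e : ∀ {z v}, EE T z v ∧ T v = X → En T Xᶜᶜ z v := fun hv =>
      hv.1.en (by rw [compl_compl]; exact hv.2)
    exact h.en_three (X := Xᶜ) (ncard_compl_three (hX3' a1))
      ⟨a1.1.en a1.2, q1, e b1⟩ ⟨a2.1.en a2.2, q2, e b2⟩
      ⟨a3.1.en a3.2, q3, e b3⟩ ⟨a4.1.en a4.2, q4, e b4⟩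
  · rintro z v₁ v₂ q₁ q₂ hv₁ hv₂ hq₁ hq₂
    have e : ∀ {v q}, EE T z v ∧ T v = X → EE T z q ∧ T q = Xᶜ → T v ∩ T z = T z \ T q := by
      rintro v q ⟨-, h1⟩ ⟨-, h2⟩
      rw [h1, h2, Set.sdiff_compl, inter_comm]
    have l1 := hq₁.1.lp2 h hv₁.1 hv₂.1 (e hv₁ hq₁) (e hv₂ hq₁)
    have l2 := hq₂.1.lp2 h hv₁.1 hv₂.1 (e hv₁ hq₂) (e hv₂ hq₂)
    have nz : ∀ {v q}, EE T z v ∧ T v = X → EE T z q ∧ T q = Xᶜ →
        cr (q - z) (v - z) ≠ 0 := by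
      intro v q hv hq
      refine cr_ne_of hq.1.dist hv.1.dist ((hv.1.en hv.2).ne (hX3 hv) (hq.1.en hq.2)).symm ?_
      rw [add_comm]
      exact hv.1.anti h hq.1 (hc hv hq)
    have n11 := nz hv₁ hq₁
    have n21 := nz hv₂ hq₁
    have n12 := nz hv₁ hq₂
    have n22 := nz hv₂ hq₂
    have hP : (0 < cr (q₁ - z) (v₁ - z) * cr (q₁ - z) (v₂ - z)) ↔
        0 < cr (q₂ - z) (v₁ - z) * cr (q₂ - z) (v₂ - z) := l1.symm.trans l2
    have hpos : 0 < (cr (q₁ - z) (v₁ - z) * cr (q₁ - z) (v₂ - z)) *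
        (cr (q₂ - z) (v₁ - z) * cr (q₂ - z) (v₂ - z)) := by
      rcases lt_or_gt_of_ne (mul_ne_zero n11 n21) with h5 | h5
      · rcases lt_or_gt_of_ne (mul_ne_zero n12 n22) with h6 | h6
        · exact mul_pos_of_neg_of_neg h5 h6
        · exact absurd (hP.2 h6) (not_lt.2 h5.le)
      · exact mul_pos h5 (hP.1 h5)
    refine hpos.trans_le (le_of_eq ?_)
    unfold cr Vale.Agent.P032.Net.H672.dt
    ring
  · intro z v q hv hq
    rcases S5.H349.L2_of h (hX3 hv) (h3 hv.1) (hv.1.pairs h hv.2) (hcl hv hq) (hv.1.en hv.2)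
      (hq.1.en hq.2) with ⟨v', h5, h6⟩ | ⟨q', h5, h6⟩
    · exact Or.inl ⟨v', h5, back hv hq h6⟩
    · exact Or.inr ⟨q', h5, back' hv hq h6⟩
  · intro z v q q' hv hq hq' hne hu1 hu2
    exact S5.H349.L3_of h (hX3 hv) (h3 hv.1) (hv.1.pairs h hv.2) (hcl hv hq) (hv.1.en hv.2)
      (hq.1.en hq.2) (hq'.1.en hq'.2) hne (fun v' h5 => hu1 v' (back hv hq h5))
      (fun p h5 => hu2 p (back' hv hq h5))
  · intro z q v v' hq hv hv' hne hu1 hu2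
    have e : ∀ {z v}, EE T z v ∧ T v = X → T v = Xᶜᶜ := fun hv => by
      rw [compl_compl]; exact hv.2
    refine S5.H349.L3_of (X := Xᶜ) h (ncard_compl_three (hX3 hv)) (h3 hv.1) (hq.1.pairs h hq.2) ?_
      (hq.1.en hq.2) (hv.1.en (e hv)) (hv'.1.en (e hv')) hne
      (fun v' h5 => hu1 v' (back' hv hq h5))
      (fun p h5 => hu2 p (back hv hq (by rw [compl_compl] at h5; exact h5)))
    intro m hm h5
    refine hcl hv hq m hm ?_
    rw [compl_compl] at h5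
    exact h5.symm

end Vale.Agent.P032.Six
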