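import Vale.Agent.P032.S5.H12.Inst
import Vale.Agent.P032.S5.H496.Start

/-!
# P032: no two-pair centres in a clean family
-/

open Set Filter Topology Metric

noncomputable section

namespace Vale.Agent.P032.Six

variable {U : Fin 6 → Set ℂ} {T : ℂ → Set (Fin 6)}

/-- **No two-pair centre** in a family with at most four colours at every point and without adjacent
four-coloured points -/
theorem DPt.false_of_clean (h : Irr U T)
    (hmin : ∀ z, 4 ≤ (T z).ncard → ∀ s, s ⊆ T z → s ≠ T z →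
      ¬ ∀ᶠ w in 𝓝 z, ∃ i ∈ s, w ∈ U i ∨ (w ∈ XX U ∧ i ∈ Pal U w))
    (h4 : ∀ z, (T z).ncard ≤ 4)
    (hu : ∀ z z', 4 ≤ (T z).ncard → 4 ≤ (T z').ncard → Dist.dist z z' ≠ 1)
    {z : ℂ} {a b c d : Fin 6} (hz : DPt T z a b c d) : False := by
  obtain ⟨v, q, hv, hq, hc⟩ := DPt.start_of h hmin h4 hu hz
  exact EE.no_compl h h4 (fun x y hx hy => hu x y hx.ge hy.ge) hv hq hc

/-- the same in the form used at the top -/
theorem Irr.no_D (h : Irr U T)
    (hmin : ∀ z, 4 ≤ (T z).ncard → ∀ s, s ⊆ T z → s ≠ T z →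
      ¬ ∀ᶠ w in 𝓝 z, ∃ i ∈ s, w ∈ U i ∨ (w ∈ XX U ∧ i ∈ Pal U w))
    (h4 : ∀ z, (T z).ncard ≤ 4)
    (hu : ∀ z z', 4 ≤ (T z).ncard → 4 ≤ (T z').ncard → Dist.dist z z' ≠ 1) :
    ∀ z p q, (T z).ncard = 4 → Dist.dist p z = 1 → Dist.dist q z = 1 →
      (∀ᶠ x in 𝓝[sphere z 1] p, T x = T p) → (∀ᶠ x in 𝓝[sphere z 1] q, T x = T q) →
      (T p).ncard = 2 → (T q).ncard = 2 → Disjoint (T p) (T q) → T p ∪ T q = T z → False := by
  intro z p q _ hp hq hpc hqc hp2 hq2 hdis hun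
  obtain ⟨a, b, hab, hTp⟩ := Set.ncard_eq_two.1 hp2
  obtain ⟨c, d, hcd, hTq⟩ := Set.ncard_eq_two.1 hq2
  have hn : ∀ {i j : Fin 6}, i ∈ T p → j ∈ T q → i ≠ j := by
    rintro i j hi hj rfl
    exact Set.disjoint_left.1 hdis hi hj
  have ha : a ∈ T p := by rw [hTp]; simp
  have hb : b ∈ T p := by rw [hTp]; simp
  have hc : c ∈ T q := by rw [hTq]; simp
  have hd : d ∈ T q := by rw [hTq]; simp
  refine DPt.false_of_clean h hmin h4 hu (z := z) (a := a) (b := b) (c := c) (d := d)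
    ⟨?_, hn ha hc, hn ha hd, hn hb hc, hn hb hd, hab, hcd, ⟨p, hp, ?_⟩, ⟨q, hq, ?_⟩⟩
  · rw [← hun, hTp, hTq]
    ext i
    simp only [mem_union, mem_insert_iff, mem_singleton_iff]
    tauto
  · rw [hTp] at hpc; exact hpc
  · rw [hTq] at hqc; exact hqc

end Vale.Agent.P032.Six
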