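import Vale.Agent.P032.S5.H12.LP3E

/-!
# P032: two centres of a vertex are never antipodal

`v` is an end of exact arcs of the circles about three centres `z`, `w`, `c` with three different
pairs.  If `w + c = 2 v` the two circles touch at `v`, and one colour would fill a part of the
neighbourhood of `v` which meets both sides of `S(z)`.
-/

open Set Filter Topology Metric

noncomputable section

namespace Vale.Agent.P032.S5.H12

open Vale.Agent.P032.Six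

theorem ray_lt {v z δ : ℂ} (hv : dist v z = 1) (h : 0 < ip δ (z - v)) :
    ∀ᶠ r : ℝ in 𝓝[>] 0, dist (v + r * δ) z < 1 := by
  have h1 : Tendsto (fun r : ℝ => 2 * ip δ (z - v) - r * ip δ δ) (𝓝[>] 0)
      (𝓝 (2 * ip δ (z - v) - 0 * ip δ δ)) :=
    (tendsto_const_nhds.sub (tendsto_id.mul_const _)).mono_left nhdsWithin_le_nhds
  have h2 : 0 < 2 * ip δ (z - v) - 0 * ip δ δ := by linarith
  filter_upwards [h1.eventually (lt_mem_nhds h2), self_mem_nhdsWithin] with r h3 h4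
  have h4' : (0 : ℝ) < r := h4
  have h5 := sq_line v δ z r
  rw [hv] at h5
  have h6 : dist (v + r * δ) z ^ 2 < 1 := by
    rw [h5]
    have := mul_pos h4' h3
    nlinarith
  have h7 : 0 ≤ dist (v + r * δ) z := dist_nonneg
  nlinarith

theorem ray_gt {v z δ : ℂ} (hv : dist v z = 1) (h : ip δ (z - v) ≤ 0) (hd : 0 < ip δ δ) :
    ∀ᶠ r : ℝ in 𝓝[>] 0, 1 < dist (v + r * δ) z := by
  filter_upwards [self_mem_nhdsWithin] with r h4
  have h4' : (0 : ℝ) < r := h4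
  have h5 := sq_line v δ z r
  rw [hv] at h5
  have h6 : 1 < dist (v + r * δ) z ^ 2 := by
    rw [h5]
    have := mul_pos (pow_pos h4' 2) hd
    nlinarith [mul_nonneg h4'.le (neg_nonneg.2 h)]
  have h7 : 0 ≤ dist (v + r * δ) z := dist_nonneg
  nlinarith

theorem ray_tendsto (v δ : ℂ) : Tendsto (fun r : ℝ => v + r * δ) (𝓝[>] 0) (𝓝 v) := by
  have hc : Continuous fun r : ℝ => v + r * δ := by fun_prop
  have := hc.tendsto 0
  simp only [Complex.ofReal_zero, zero_mul, add_zero] at this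
  exact this.mono_left nhdsWithin_le_nhds

/-- `u` unit vectors, not parallel -/
theorem ip_lt {a b : ℂ} (ha : ip a a = 1) (hb : ip b b = 1) (hc : cr a b ≠ 0) :
    ip a b < 1 ∧ -1 < ip a b := by
  have h1 : ip a b ^ 2 + cr a b ^ 2 = ip a a * ip b b := by unfold ip cr; ring
  have h2 : 0 < cr a b ^ 2 := by positivity
  rw [ha, hb] at h1
  constructor <;> nlinarith

variable {U : Fin 6 → Set ℂ} {T : ℂ → Set (Fin 6)}

theorem ev_sub (h : Irr U T) (v : ℂ) : ∀ᶠ u in 𝓝 v, T u ⊆ T v := by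
  have h1 : ∀ i : Fin 6, ∀ᶠ u in 𝓝 v, i ∈ T u → i ∈ T v := by
    intro i
    by_cases hi : i ∈ T v
    · exact Eventually.of_forall fun u _ => hi
    · filter_upwards [(h.closed i).isOpen_compl.mem_nhds hi] with u hu hu'
      exact absurd hu' hu
  filter_upwards [eventually_all.2 h1] with u hu i hi
  exact hu i hi

/-- the three colours cannot all be missing along a ray -/
theorem no_ray (h : Irr U T) {v δ : ℂ} {p r s : Fin 6} (hT : T v ⊆ {p, r, s})
    (h1 : ∀ᶠ t : ℝ in 𝓝[>] 0, p ∉ Pal U (v + t * δ) ∧ r ∉ Pal U (v + t * δ) ∧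
      s ∉ Pal U (v + t * δ)) : False := by
  obtain ⟨t, ⟨a1, a2, a3⟩, h2⟩ := (h1.and ((ray_tendsto v δ).eventually (ev_sub h v))).exists
  obtain ⟨i, hi⟩ := h.ne (v + t * δ)
  rcases hT (h2 hi) with h3 | h3 | h3
  · exact a1 (h.sub _ (h3 ▸ hi))
  · exact a2 (h.sub _ (h3 ▸ hi))
  · rw [mem_singleton_iff] at h3
    exact a3 (h.sub _ (h3 ▸ hi))

/-- a region on both sides of `S(z)` cannot carry only one of the two colours `p`, `s` -/
theorem no_touch_aux (h : Irr U T) {v z w c : ℂ} {p r s : Fin 6} (hT : T v ⊆ {p, r, s})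
    (hvz : dist v z = 1) (hvw : dist v w = 1) (hvc : dist v c = 1) (hcr : cr (z - v) (w - v) ≠ 0)
    (hwc : w + c = 2 * v) (sz : Sd U z v p s ∨ Sd U z v s p) (sw : Sd U w v r s ∨ Sd U w v s r)
    (sc : Sd U c v p r ∨ Sd U c v r p) : False := by
  have hZ : ip (z - v) (z - v) = 1 := by
    have := ip_sq (n := z - v) (by rw [← dist_eq_norm, dist_comm]; exact hvz)
    unfold ip; linarith
  have hW : ip (w - v) (w - v) = 1 := by
    have := ip_sq (n := w - v) (by rw [← dist_eq_norm, dist_comm]; exact hvw)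
    unfold ip; linarith
  have hc : c - v = -(w - v) := by linear_combination hwc
  have hlt := ip_lt hZ hW hcr
  -- directions outside both discs
  have outd : ∀ {σ : ℝ}, (σ = 1 ∨ σ = -1) → ∃ δ : ℂ, (∀ᶠ t : ℝ in 𝓝[>] 0, 1 < dist (v + t * δ) w) ∧
      (∀ᶠ t : ℝ in 𝓝[>] 0, 1 < dist (v + t * δ) c) ∧
      ∀ᶠ t : ℝ in 𝓝[>] 0, 0 < σ * (dist (v + t * δ) z - 1) := by
    intro σ hσ
    set τ : ℝ := σ * SignType.sign (cr (z - v) (w - v)) with hτ
    have hτ2 : τ * τ = 1 := by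
      rw [hτ]
      rcases lt_or_gt_of_ne hcr with h5 | h5
      · rw [sign_neg h5]; rcases hσ with rfl | rfl <;> simp
      · rw [sign_pos h5]; rcases hσ with rfl | rfl <;> simp
    have e1 : ip ((τ : ℂ) * (Complex.I * (w - v))) (w - v) = 0 := by
      unfold ip; simp; ring
    have e2 : ip ((τ : ℂ) * (Complex.I * (w - v))) (c - v) = 0 := by
      rw [hc]; unfold ip; simp; ring
    have e3 : ip ((τ : ℂ) * (Complex.I * (w - v))) (z - v) = -(τ * cr (z - v) (w - v)) := by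
      unfold ip cr; simp; ring
    have e4 : ip ((τ : ℂ) * (Complex.I * (w - v))) ((τ : ℂ) * (Complex.I * (w - v))) = 1 := by
      have : ip ((τ : ℂ) * (Complex.I * (w - v))) ((τ : ℂ) * (Complex.I * (w - v))) =
          τ * τ * ip (w - v) (w - v) := by unfold ip; simp; ring
      rw [this, hτ2, hW]; norm_num
    refine ⟨(τ : ℂ) * (Complex.I * (w - v)), ray_gt hvw e1.le (by rw [e4]; norm_num),
      ray_gt hvc e2.le (by rw [e4]; norm_num), ?_⟩
    have e5 : τ * cr (z - v) (w - v) = σ * |cr (z - v) (w - v)| := by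
      rw [hτ, mul_assoc, sign_mul_self]
    have hpos : 0 < |cr (z - v) (w - v)| := abs_pos.2 hcr
    rcases hσ with rfl | rfl
    · have := ray_gt (δ := (τ : ℂ) * (Complex.I * (w - v))) hvz (by rw [e3, e5]; linarith)
        (by rw [e4]; norm_num)
      filter_upwards [this] with t ht
      linarith
    · have := ray_lt (δ := (τ : ℂ) * (Complex.I * (w - v))) hvz (by rw [e3, e5]; linarith)
      filter_upwards [this] with t ht
      linarith
  -- directions into the disc about `w`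
  have ind : ∀ {σ : ℝ}, (σ = 1 ∨ σ = -1) → ∃ δ : ℂ, (∀ᶠ t : ℝ in 𝓝[>] 0, dist (v + t * δ) w < 1) ∧
      (∀ᶠ t : ℝ in 𝓝[>] 0, 1 < dist (v + t * δ) c) ∧
      ∀ᶠ t : ℝ in 𝓝[>] 0, 0 < σ * (dist (v + t * δ) z - 1) := by
    intro σ hσ
    have e0 : ip (w - v) (z - v) = ip (z - v) (w - v) := by unfold ip; ring
    have e1 : ip ((w - v) + ((-σ : ℝ) : ℂ) * (z - v)) (w - v) =
        1 - σ * ip (z - v) (w - v) := by
      rw [← hW]; unfold ip; simp; ring
    have e3 : ip ((w - v) + ((-σ : ℝ) : ℂ) * (z - v)) (z - v) = ip (z - v) (w - v) - σ := by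
      have : ip ((w - v) + ((-σ : ℝ) : ℂ) * (z - v)) (z - v) =
        ip (z - v) (w - v) - σ * ip (z - v) (z - v) := by unfold ip; simp; ring
      rw [this, hZ, mul_one]
    have e2 : ip ((w - v) + ((-σ : ℝ) : ℂ) * (z - v)) (c - v) =
        -(1 - σ * ip (z - v) (w - v)) := by
      rw [← e1, hc]; unfold ip; simp; ring
    have hpos : 0 < 1 - σ * ip (z - v) (w - v) := by
      rcases hσ with rfl | rfl <;> linarith [hlt.1, hlt.2]
    have hd : 0 < ip ((w - v) + ((-σ : ℝ) : ℂ) * (z - v)) ((w - v) + ((-σ : ℝ) : ℂ) * (z - v)) := by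
      have h0 : (w - v) + ((-σ : ℝ) : ℂ) * (z - v) ≠ 0 := by
        intro h5
        rw [h5] at e1
        have : ip 0 (w - v) = 0 := by unfold ip; simp
        linarith
      have h1 := Complex.normSq_pos.2 h0
      rw [Complex.normSq_apply] at h1
      unfold ip
      exact h1
    refine ⟨_, ray_lt hvw (by rw [e1]; exact hpos), ray_gt hvc (by rw [e2]; linarith) hd, ?_⟩
    rcases hσ with rfl | rfl
    · have := ray_gt hvz (by rw [e3]; linarith [hlt.1]) hd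
      filter_upwards [this] with t ht
      linarith
    · have := ray_lt (δ := (w - v) + ((-(-1 : ℝ) : ℝ) : ℂ) * (z - v)) hvz
        (by rw [e3]; linarith [hlt.2])
      filter_upwards [this] with t ht
      linarith
  -- the common end of the four cases
  have fin : ∀ {R : ℂ → Prop},
      (∀ {σ : ℝ}, (σ = 1 ∨ σ = -1) → ∃ δ : ℂ, (∀ᶠ t : ℝ in 𝓝[>] 0, R (v + t * δ)) ∧
        ∀ᶠ t : ℝ in 𝓝[>] 0, 0 < σ * (dist (v + t * δ) z - 1)) →
      ((∀ᶠ u in 𝓝 v, R u → p ∉ Pal U u ∧ r ∉ Pal U u) ∨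
        ∀ᶠ u in 𝓝 v, R u → r ∉ Pal U u ∧ s ∉ Pal U u) → False := by
    intro R hR hcol
    have sgn : ∀ {δ : ℂ} {x : Fin 6} {σ : ℝ}, (σ = 1 ∨ σ = -1) →
        (∀ᶠ t : ℝ in 𝓝[>] 0, 0 < σ * (dist (v + t * δ) z - 1)) →
        (σ = 1 → ∀ᶠ u in 𝓝 v, 1 < dist u z → x ∉ Pal U u) →
        (σ = -1 → ∀ᶠ u in 𝓝 v, dist u z < 1 → x ∉ Pal U u) →
        ∀ᶠ t : ℝ in 𝓝[>] 0, x ∉ Pal U (v + t * δ) := by
      intro δ x σ hσ h1 h2 h3
      rcases hσ with rfl | rfl
      · filter_upwards [h1, (ray_tendsto v δ).eventually (h2 rfl)] with t h4 h5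
        exact h5 (by linarith)
      · filter_upwards [h1, (ray_tendsto v δ).eventually (h3 rfl)] with t h4 h5
        exact h5 (by linarith)
    have z1 : ∀ {x : Fin 6}, (∀ᶠ u in 𝓝 v, 1 < dist u z → x ∉ Pal U u) →
        ∃ δ : ℂ, (∀ᶠ t : ℝ in 𝓝[>] 0, R (v + t * δ)) ∧ ∀ᶠ t : ℝ in 𝓝[>] 0, x ∉ Pal U (v + t * δ) := by
      intro x h1
      obtain ⟨δ, a1, a2⟩ := hR (Or.inl rfl : (1 : ℝ) = 1 ∨ (1 : ℝ) = -1)
      refine ⟨δ, a1, sgn (Or.inl rfl) a2 (fun _ => h1) fun h5 => ?_⟩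
      norm_num at h5
    have z2 : ∀ {x : Fin 6}, (∀ᶠ u in 𝓝 v, dist u z < 1 → x ∉ Pal U u) →
        ∃ δ : ℂ, (∀ᶠ t : ℝ in 𝓝[>] 0, R (v + t * δ)) ∧ ∀ᶠ t : ℝ in 𝓝[>] 0, x ∉ Pal U (v + t * δ) := by
      intro x h1
      obtain ⟨δ, a1, a2⟩ := hR (Or.inr rfl : (-1 : ℝ) = 1 ∨ (-1 : ℝ) = -1)
      refine ⟨δ, a1, sgn (Or.inr rfl) a2 (fun h5 => ?_) fun _ => h1⟩
      norm_num at h5
    have zp : ∃ δ : ℂ, (∀ᶠ t : ℝ in 𝓝[>] 0, R (v + t * δ)) ∧
        ∀ᶠ t : ℝ in 𝓝[>] 0, p ∉ Pal U (v + t * δ) := by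
      rcases sz with sz | sz
      · exact z1 (sz.mono fun u hu => hu.1)
      · exact z2 (sz.mono fun u hu => hu.2)
    have zs : ∃ δ : ℂ, (∀ᶠ t : ℝ in 𝓝[>] 0, R (v + t * δ)) ∧
        ∀ᶠ t : ℝ in 𝓝[>] 0, s ∉ Pal U (v + t * δ) := by
      rcases sz with sz | sz
      · exact z2 (sz.mono fun u hu => hu.2)
      · exact z1 (sz.mono fun u hu => hu.1)
    rcases hcol with hcol | hcol
    · obtain ⟨δ, a1, a2⟩ := zs
      refine no_ray h (δ := δ) hT ?_
      filter_upwards [a1, a2, (ray_tendsto v δ).eventually hcol] with t b1 b2 b3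
      exact ⟨(b3 b1).1, (b3 b1).2, b2⟩
    · obtain ⟨δ, a1, a2⟩ := zp
      refine no_ray h (δ := δ) hT ?_
      filter_upwards [a1, a2, (ray_tendsto v δ).eventually hcol] with t b1 b2 b3
      exact ⟨b2, (b3 b1).1, (b3 b1).2⟩
  have O : ∀ {σ : ℝ}, (σ = 1 ∨ σ = -1) → ∃ δ : ℂ,
      (∀ᶠ t : ℝ in 𝓝[>] 0, 1 < dist (v + t * δ) w ∧ 1 < dist (v + t * δ) c) ∧
        ∀ᶠ t : ℝ in 𝓝[>] 0, 0 < σ * (dist (v + t * δ) z - 1) := by
    intro σ hσ
    obtain ⟨δ, a1, a2, a3⟩ := outd hσ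
    exact ⟨δ, a1.and a2, a3⟩
  have J : ∀ {σ : ℝ}, (σ = 1 ∨ σ = -1) → ∃ δ : ℂ,
      (∀ᶠ t : ℝ in 𝓝[>] 0, dist (v + t * δ) w < 1 ∧ 1 < dist (v + t * δ) c) ∧
        ∀ᶠ t : ℝ in 𝓝[>] 0, 0 < σ * (dist (v + t * δ) z - 1) := by
    intro σ hσ
    obtain ⟨δ, a1, a2, a3⟩ := ind hσ
    exact ⟨δ, a1.and a2, a3⟩
  rcases sw with sw | sw <;> rcases sc with sc | sc
  · refine fin (R := fun u => 1 < dist u w ∧ 1 < dist u c) O (Or.inl ?_)
    filter_upwards [sw, sc] with u h1 h2 hu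
    exact ⟨h2.1 hu.2, h1.1 hu.1⟩
  · refine fin (R := fun u => dist u w < 1 ∧ 1 < dist u c) J (Or.inr ?_)
    filter_upwards [sw, sc] with u h1 h2 hu
    exact ⟨h2.1 hu.2, h1.2 hu.1⟩
  · refine fin (R := fun u => dist u w < 1 ∧ 1 < dist u c) J (Or.inl ?_)
    filter_upwards [sw, sc] with u h1 h2 hu
    exact ⟨h2.1 hu.2, h1.2 hu.1⟩
  · refine fin (R := fun u => 1 < dist u w ∧ 1 < dist u c) O (Or.inr ?_)
    filter_upwards [sw, sc] with u h1 h2 hu
    exact ⟨h2.1 hu.2, h1.1 hu.1⟩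

/-- **the second and the third centre of a vertex are not antipodal** -/
theorem no_touch (h : Irr U T) {v z w c : ℂ} {oz ow oc : ℝ} (hz : OEnd T z v oz)
    (hw : OEnd T w v ow) (hc : OEnd T c v oc) (hz' : ∃ p, Arc T z p (T z \ T v))
    (hw' : ∃ p, Arc T w p (T w \ T v)) (hc' : ∃ p, Arc T c p (T c \ T v)) (hzw : z ≠ w)
    (hzw2 : z + w ≠ 2 * v) (h1 : T z ∩ T v ≠ T w ∩ T v) (h2 : T c ∩ T v ≠ T z ∩ T v)
    (h3 : T c ∩ T v ≠ T w ∩ T v) : w + c ≠ 2 * v := by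
  intro hwc
  obtain ⟨r, hr, hrz⟩ := hz.missing172
  obtain ⟨p, hp, hpw⟩ := hw.missing172
  obtain ⟨s, hs, hsc⟩ := hc.missing172
  have hv3 := hz.2.2.2.1
  have huniq : ∀ {x y : ℂ} {o o' : ℝ} {i : Fin 6}, OEnd T x v o → OEnd T y v o' → i ∈ T v →
      i ∉ T x → i ∉ T y → T x ∩ T v = T y ∩ T v := by
    intro x y o o' i hx hy hi hix hiy
    have e : ∀ {x : ℂ} {o : ℝ}, OEnd T x v o → i ∉ T x → T x ∩ T v = T v \ {i} := by
      intro x o hx hix
      refine Set.eq_of_subset_of_ncard_le ?_ ?_ (Set.toFinite _)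
      · rintro j ⟨hj1, hj2⟩
        refine ⟨hj2, fun hji => ?_⟩
        rw [mem_singleton_iff] at hji
        subst hji
        exact hix hj1
      · rw [hx.2.2.2.2.1, Set.ncard_sdiff_singleton_of_mem hi, hv3]
    rw [e hx hix, e hy hiy]
  have hrp : r ≠ p := by rintro rfl; exact h1 (huniq hz hw hr hrz hpw)
  have hsr : s ≠ r := by rintro rfl; exact h2 (huniq hc hz hs hsc hrz)
  have hsp : s ≠ p := by rintro rfl; exact h3 (huniq hc hw hs hsc hpw)
  have hTv : T v ⊆ {p, r, s} := by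
    have : ({p, r, s} : Set (Fin 6)) = T v := by
      refine Set.eq_of_subset_of_ncard_le ?_ ?_ (Set.toFinite _)
      · rintro i (rfl | rfl | hi)
        · exact hp
        · exact hr
        · rw [mem_singleton_iff] at hi; subst hi; exact hs
      · rw [hv3, Set.ncard_eq_three.2 ⟨p, r, s, hrp.symm, hsp.symm, hsr.symm, rfl⟩]
    exact this.ge
  have ez : T z ∩ T v = {p, s} := hz.pair172 hsp.symm hp hs hr hrp.symm hsr hrz
  have ew : T w ∩ T v = {r, s} := hw.pair172 hsr.symm hr hs hp hrp hsp hpw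
  have ec : T c ∩ T v = {p, r} := hc.pair172 hrp.symm hp hr hs hsp.symm hsr.symm hsc
  obtain ⟨c1, d1, hD1⟩ := hz.dpt172 hz' hsp.symm ez
  obtain ⟨c2, d2, hD2⟩ := hw.dpt172 hw' hsr.symm ew
  obtain ⟨c3, d3, hD3⟩ := hc.dpt172 hc' hrp.symm ec
  have h0 : cr (z - v) (w - v) ≠ 0 := by
    intro hcr
    rcases cr_zero (by rw [← dist_eq_norm, dist_comm]; exact hz.2.1)
      (by rw [← dist_eq_norm, dist_comm]; exact hw.2.1) hcr with h5 | h5
    · exact hzw (by linear_combination h5)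
    · exact hzw2 (by linear_combination h5)
  exact no_touch_aux h hTv hz.2.1 hw.2.1 hc.2.1 h0 hwc (h.sides hD1 hz.2.1) (h.sides hD2 hw.2.1)
    (h.sides hD3 hc.2.1)

end Vale.Agent.P032.S5.H12
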