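import Vale.Agent.P032.S5.H12.VNet
import Vale.Agent.P032.S5.H448.TopD

/-!
# P032: centres with antipodal special ends

`VW T z`: the facts at one two-pair centre which do not exclude special ends: no clean `(1,1)`, a clean
`(1,2)` is a triangle, and a point of `S(z)` with more than three colours is harmless for `z` or has at
most the two antipodal two-pair neighbours `z` and `2y - z`.  `ori_V`: then at every centre with clean
`(1,2)` the two arcs of the second kind have the same orientation (394 (al) and (be)).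
`no_D_V`: row XD with a third alternative, a clean `(1,2)` with different orientations.
-/

open Set Filter Topology Metric

noncomputable section

namespace Vale.Agent.P032.S5.H12

open Vale.Agent.P032.Six Vale.Agent.P032.Words Vale.Agent.P032.S5.H767 Vale.Agent.P032.S5.H349
open Vale.Agent.P032.Net.H672 Vale.Agent.P032.Net.H12
open Vale.Agent.P032.S5.H358 (OkC Good PtC L2_ok L3_ok pair_of_arc)

variable {U : Fin 6 → Set ℂ} {T : ℂ → Set (Fin 6)} {X : Set (Fin 6)} {z v q q' m w : ℂ}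
  {a b c d e f : Fin 6}

/-- no two complementary clean ends alone; two clean ends against one surround the centre -/
structure L23 (T : ℂ → Set (Fin 6)) (z : ℂ) : Prop where
  L2 : ∀ {v q}, EE T z v → EE T z q → T q = (T v)ᶜ →
    (∃ v', v' ≠ v ∧ EE T z v' ∧ T v' = T v) ∨ ∃ q', q' ≠ q ∧ EE T z q' ∧ T q' = T q
  L3 : ∀ {v q q'}, EE T z v → EE T z q → EE T z q' → T q = (T v)ᶜ → T q' = (T v)ᶜ → q ≠ q' →
    (∀ p, EE T z p → T p = T v → p = v) → (∀ p, EE T z p → T p = (T v)ᶜ → p = q ∨ p = q') →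
    ∃ α β γ : ℝ, 0 < α ∧ 0 < β ∧ 0 < γ ∧
      (α : ℂ) * (v - z) + (β : ℂ) * (q - z) + (γ : ℂ) * (q' - z) = 0

/-- the points of the circle of `z` with more than three colours: harmless for `z`, or with at most two
two-pair neighbours, which are antipodal -/
def PtV (T : ℂ → Set (Fin 6)) (z : ℂ) : Prop :=
  ∀ y, dist y z = 1 → (T y).ncard ≤ 3 ∨
    (∃ P, P ⊆ T z ∧ P.ncard = 2 ∧ (∃ p, Arc T z p P) ∧ T y = P ∪ (T z)ᶜ) ∨
    ∀ w a b c d, DPt T w a b c d → dist w y = 1 → w = z ∨ w + z = 2 * y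

/-- the facts at one centre -/
structure VW (T : ℂ → Set (Fin 6)) (z : ℂ) : Prop extends L23 T z where
  pts : PtV T z

theorem l23_good (h : Irr U T) (h4 : ∀ z, (T z).ncard ≤ 4) (K : OkC U T z) : L23 T z := by
  have hcl : ∀ {v q}, EE T z v → EE T z q → T q = (T v)ᶜ → ∀ m, dist m z = 1 →
      T m = T v ∨ T m = (T v)ᶜ → Cln T z m := by
    rintro v q hv hq hc m hm (h5 | h5)
    · exact hv.cln h h4 hq hc hm h5
    · exact hq.cln h h4 hv (by rw [hc, compl_compl]) hm (h5.trans hc.symm)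
  refine ⟨fun {v q} hv hq hc => ?_, fun {v q q'} hv hq hq' hc hc' hne h1 h2 => ?_⟩
  · have back : ∀ {v'}, En T (T v) z v' → EE T z v' ∧ T v' = T v := fun h5 =>
      ⟨h5.ee hv.card_v hv.2, h5.1⟩
    have back' : ∀ {v'}, En T (T v)ᶜ z v' → EE T z v' ∧ T v' = T q := fun h5 =>
      ⟨h5.ee (ncard_compl_three hv.card_v) (by rw [← hc]; exact hq.2), h5.1.trans hc.symm⟩
    rcases L2_ok h hv.card_v K (hv.pairs h rfl) (hcl hv hq hc) (hv.en rfl) (hq.en hc) with
      ⟨v', h5, h6⟩ | ⟨q', h5, h6⟩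
    · exact Or.inl ⟨v', h5, back h6⟩
    · exact Or.inr ⟨q', h5, back' h6⟩
  · refine L3_ok h hv.card_v K (hv.pairs h rfl) (hcl hv hq hc) (hv.en rfl) (hq.en hc) (hq'.en hc')
      hne (fun v' h5 => h1 v' (h5.ee hv.card_v hv.2) h5.1) fun p h5 => h2 p
        (h5.ee (ncard_compl_three hv.card_v) (by rw [← hc]; exact hq.2)) h5.1

theorem vw_good (h : Irr U T) (h4 : ∀ z, (T z).ncard ≤ 4) (K : Good U T z) : VW T z :=
  { l23_good h h4 K.1 with pts := fun y hy => (K.2 y hy).imp id Or.inl }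

theorem vw_of_ee (h : Irr U T) (hW : ∀ z a b c d, DPt T z a b c d → VW T z)
    (hv : EE T z v) : VW T z := by
  obtain ⟨a, b, c, d, h1, h2⟩ := hv.names
  exact hW z a b c d (hv.dpt h h1 h2)

/-- the network -/
theorem net_V (h : Irr U T) (h4 : ∀ z, (T z).ncard ≤ 4)
    (hW : ∀ z a b c d, DPt T z a b c d → VW T z) (X : Set (Fin 6)) :
    Net (fun z v => EE T z v ∧ T v = X) (fun z q => EE T z q ∧ T q = Xᶜ) := by
  have hX3 : ∀ {z v}, EE T z v ∧ T v = X → X.ncard = 3 := by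
    rintro z v ⟨h1, rfl⟩; exact h1.card_v
  have hX3' : ∀ {z v}, EE T z v ∧ T v = Xᶜ → X.ncard = 3 := by
    rintro z v ⟨h1, h2⟩
    have h3 := h1.card_v
    rw [h2] at h3
    have := Set.ncard_add_ncard_compl X
    rw [Nat.card_eq_fintype_card, Fintype.card_fin] at this
    omega
  have hc : ∀ {z v z' q}, EE T z v ∧ T v = X → EE T z' q ∧ T q = Xᶜ → T q = (T v)ᶜ := by
    rintro z v z' q ⟨-, h1⟩ ⟨-, h2⟩
    rw [h1, h2]
  have hc' : ∀ {z v z' q}, EE T z v ∧ T v = X → EE T z' q ∧ T q = Xᶜ → T v = (T q)ᶜ := by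
    rintro z v z' q ⟨-, h1⟩ ⟨-, h2⟩
    rw [h1, h2, compl_compl]
  refine
    { dist_t := fun hv => hv.1.dist
      dist_c := fun hq => hq.1.dist
      ne := fun {z z' v} hv hq => ?_
      rh := fun {z v q} hv hq => ⟨⟨hv.1.rh h h4 hq.1 (hc hv hq), hv.2⟩,
        ⟨hv.1.rh' h h4 hq.1 (hc hv hq), hq.2⟩⟩
      three_t := ?_
      three_c := ?_
      sep := ?_
      L2 := ?_
      L3 := ?_
      L3' := ?_ }
  · have h5 := (hv.1.en hv.2).ne (hX3 hv) (hq.1.en hq.2)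
    exact h5 rfl
  · rintro v z₁ z₂ z₃ z₄ ⟨a1, q1, b1⟩ ⟨a2, q2, b2⟩ ⟨a3, q3, b3⟩ ⟨a4, q4, b4⟩
    exact h.en_three (hX3 a1) ⟨a1.1.en a1.2, q1, b1.1.en b1.2⟩ ⟨a2.1.en a2.2, q2, b2.1.en b2.2⟩
      ⟨a3.1.en a3.2, q3, b3.1.en b3.2⟩ ⟨a4.1.en a4.2, q4, b4.1.en b4.2⟩
  · rintro q z₁ z₂ z₃ z₄ ⟨a1, q1, b1⟩ ⟨a2, q2, b2⟩ ⟨a3, q3, b3⟩ ⟨a4, q4, b4⟩
    have e : ∀ {z v}, EE T z v ∧ T v = X → En T Xᶜᶜ z v := fun hv =>
      hv.1.en (by rw [compl_compl]; exact hv.2)
    exact h.en_three (X := Xᶜ) (ncard_compl_three (hX3' a1))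
      ⟨a1.1.en a1.2, q1, e b1⟩ ⟨a2.1.en a2.2, q2, e b2⟩
      ⟨a3.1.en a3.2, q3, e b3⟩ ⟨a4.1.en a4.2, q4, e b4⟩
  · intro z v₁ v₂ q₁ q₂ hv₁ hv₂ hq₁ hq₂
    exact PE.sep (X := X) h hv₁ hv₂ hq₁ hq₂
  · intro z v q hv hq
    rcases (vw_of_ee h hW hv.1).L2 hv.1 hq.1 (hc hv hq) with ⟨v', h5, h6, h7⟩ | ⟨q', h5, h6, h7⟩
    · exact Or.inl ⟨v', h5, h6, h7.trans hv.2⟩
    · exact Or.inr ⟨q', h5, h6, h7.trans hq.2⟩
  · intro z v q q' hv hq hq' hne hu1 hu2
    exact (vw_of_ee h hW hv.1).L3 hv.1 hq.1 hq'.1 (hc hv hq) (hc hv hq') hne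
      (fun p h5 h6 => hu1 p ⟨h5, h6.trans hv.2⟩)
      (fun p h5 h6 => hu2 p ⟨h5, by rw [h6, hv.2]⟩)
  · intro z q v v' hq hv hv' hne hu1 hu2
    exact (vw_of_ee h hW hv.1).L3 hq.1 hv.1 hv'.1 (hc' hv hq) (hc' hv' hq) hne
      (fun p h5 h6 => hu1 p ⟨h5, h6.trans hq.2⟩)
      (fun p h5 h6 => hu2 p ⟨h5, by rw [h6, hq.2, compl_compl]⟩)

/-- the field `common` -/
theorem common_V (h : Irr U T) (hW : ∀ z a b c d, DPt T z a b c d → VW T z)
    {w v q w' v' q' m : ℂ} (e1 : EE T w v) (e3 : T q = (T v)ᶜ)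
    (e1' : EE T w' v') (e3' : T q' = (T v')ᶜ) (hne : w ≠ w') (hcov : ∀ i, i ∈ T w ∨ i ∈ T w')
    (hmw : dist m w = 1) (hmw' : dist m w' = 1) (hne2 : w + w' ≠ 2 * m)
    (hs : (T v ∩ T w ∩ T w').ncard = 1) (hs' : (T v' ∩ T w' ∩ T w).ncard = 1) :
    (T m).ncard = 3 ∧
      (T m ∩ T w = T v ∩ T w ∨ T m ∩ T w = T q ∩ T w) ∧
      (T m ∩ T w' = T v' ∩ T w' ∨ T m ∩ T w' = T q' ∩ T w') := by
  refine e1.common h e3 e1' e3' hne hcov hmw hmw' hne2 hs hs' ?_
  obtain ⟨a, b, c, d, n1, n2⟩ := e1.names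
  have D := e1.dpt h n1 n2
  obtain ⟨a', b', c', d', n1', n2'⟩ := e1'.names
  have D' := e1'.dpt h n1' n2'
  rcases (hW w a b c d D).pts m hmw with h3 | ⟨P, hPw, hP2, ⟨p, hp⟩, hTm⟩ | h3
  · exact h3
  · rcases (hW w' a' b' c' d' D').pts m hmw' with h3 | ⟨P', hPw', hP2', ⟨p', hp'⟩, hTm'⟩ | h3
    · exact h3
    · exfalso
      -- `(T w')ᶜ ⊆ P`
      have c1 : (T w')ᶜ ⊆ P := by
        intro i hi
        have h5 : i ∈ T m := by rw [hTm']; exact Or.inr hi
        rw [hTm] at h5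
        rcases h5 with h5 | h5
        · exact h5
        · rcases hcov i with h6 | h6
          · exact absurd h6 h5
          · exact absurd h6 hi
      have n1 : (T w')ᶜ.ncard = 2 := by
        have h5 := Set.ncard_add_ncard_compl (T w')
        rw [Nat.card_eq_fintype_card, Fintype.card_fin, e1'.card_z] at h5
        omega
      have c2 : (T w')ᶜ = P := Set.eq_of_subset_of_ncard_le c1 (by omega) (Set.toFinite _)
      have hPd : (P ∩ T w').ncard = 0 := by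
        rw [← c2, compl_inter_self, Set.ncard_empty]
      have hun : T w ∪ T w' = univ := eq_univ_of_forall hcov
      have hcard : (T w ∩ T w').ncard = 2 := by
        have h1 := Set.ncard_union_add_ncard_inter (T w) (T w') (Set.toFinite _) (Set.toFinite _)
        rw [hun, Set.ncard_univ, Nat.card_eq_fintype_card, Fintype.card_fin, e1.card_z,
          e1'.card_z] at h1
        omega
      rcases pair_of_arc h e1 hPw hp with h5 | h5
      · rw [h5, inter_comm (T w) (T v)] at hPd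
        omega
      · have h6 : (T w ∩ T w') = (T v ∩ T w ∩ T w') ∪ (P ∩ T w') := by
          rw [h5]
          ext i
          simp only [mem_inter_iff, mem_union, Set.mem_sdiff]
          tauto
        have h7 := Set.ncard_union_le (T v ∩ T w ∩ T w') (P ∩ T w')
        rw [← h6] at h7
        omega
    · exfalso
      rcases h3 w a b c d D (by rw [dist_comm]; exact hmw) with h5 | h5
      · exact hne h5
      · exact hne2 h5
  · exfalso
    rcases h3 w' a' b' c' d' D' (by rw [dist_comm]; exact hmw') with h5 | h5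
    · exact hne h5.symm
    · exact hne2 (by rw [← h5, add_comm])

/-- the network with palettes, special ends allowed -/
theorem dnet0_V (h : Irr U T) (h4 : ∀ z, (T z).ncard ≤ 4)
    (hW : ∀ z a b c d, DPt T z a b c d → VW T z) : DNet0 T (EE T) (ore T) (inn U T) where
  net := net_V h h4 hW
  card_v := fun hv => hv.card_v
  card_i := fun hv => hv.card_i'
  cov := fun hv hq hc => hv.cov h h4 hq hc
  ori := fun {z v} _ => ore_or T z v
  inn_mem := fun hv => hv.inn_mem h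
  LP1 := fun hv hq hc => hv.lp1 h h4 hq hc
  LP2 := fun hq hv hv' h1 h2 => hq.1.lp2 h hv.1 hv'.1 h1 h2
  LP3 := fun hv hq hc hv' hp hc' hcz hcw => hv.lp3 h h4 hq hc hv' hp hc' hcz hcw
  auto := fun hv hq hc hm hTm => hv.auto h h4 hq hc hm hTm
  common := fun e1 _ e3 e1' _ e3' hne hcv d d' n s s' =>
    common_V h hW e1 e3 e1' e3' hne hcv d d' n s s'

/-- **the two arcs of the second kind have the same orientation** -/
theorem ori_V (h : Irr U T) (h4 : ∀ z, (T z).ncard ≤ 4)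
    (hW : ∀ z a b c d, DPt T z a b c d → VW T z) (hv : EE T z v) (hq : EE T z q)
    (hq' : EE T z q') (hc : T q = (T v)ᶜ) (hc' : T q' = (T v)ᶜ) (hne : q ≠ q') :
    ore T z q = ore T z q' :=
  (dnet0_V h h4 hW).ori_eq ⟨hv, hq, hq', hc, hc', hne⟩

/-- a centre with a clean `(1,2)` and two different orientations -/
def OppO (T : ℂ → Set (Fin 6)) (z : ℂ) : Prop :=
  ∃ v q q', EE T z v ∧ EE T z q ∧ EE T z q' ∧ T q = (T v)ᶜ ∧ T q' = (T v)ᶜ ∧ q ≠ q' ∧
    ore T z q ≠ ore T z q'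

theorem not_oppO (h : Irr U T) (h4 : ∀ z, (T z).ncard ≤ 4)
    (hW : ∀ z a b c d, DPt T z a b c d → VW T z) (z : ℂ) : ¬ OppO T z := by
  rintro ⟨v, q, q', h1, h2, h3, h5, h6, h7, h8⟩
  exact h8 (ori_V h h4 hW h1 h2 h3 h5 h6 h7)

/-- **Row XD with the third alternative (V)**: every two-pair centre is good, or has the three facts
and a clean `(2,2)` network, or has the facts `VW` and a clean network with two ends of one type of
different orientations. -/
theorem no_D_V (h : Irr U T) (h4 : ∀ z, (T z).ncard ≤ 4)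
    (hD : ∀ z a b c d, DPt T z a b c d → Good U T z ∨
      (H448.Tab T z ∧ H358.Has22 T z) ∨ (H448.Tab T z ∧ VW T z ∧ OppO T z)) :
    ∀ z a b c d, DPt T z a b c d → False := by
  have h22 : ∀ z, ¬ H358.Has22 T z := by
    refine H448.not_has22 h h4 (H448.tab_of_D h fun z a b c d hz => ?_)
    rcases hD z a b c d hz with h5 | h5 | h5
    · exact H448.tab_ok h h4 h5.1
    · exact h5.1
    · exact h5.1
  have hW : ∀ z a b c d, DPt T z a b c d → VW T z := by
    intro z a b c d hz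
    rcases hD z a b c d hz with h5 | h5 | h5
    · exact vw_good h h4 h5
    · exact absurd h5.2 (h22 z)
    · exact h5.2.1
  refine H358.no_D_of_22 h h4 h22 fun z a b c d hz => ?_
  rcases hD z a b c d hz with h5 | h5 | h5
  · exact Or.inl h5
  · exact Or.inr h5.2
  · exact absurd h5.2.2 (not_oppO h h4 hW z)

/-- `L23` gives the three facts -/
theorem tab_L23 (h : Irr U T) (L : L23 T z) : H448.Tab T z where
  s12 := by
    intro X v q q' hv hq hq' hne h1 h2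
    obtain ⟨rfl, c1⟩ : T v = X ∧ True := ⟨hv.2, trivial⟩
    obtain ⟨α, β, γ, hα, hβ, hγ, hl⟩ := L.L3 hv.1 hq.1 hq'.1 hq.2 hq'.2 hne
      (fun p h5 h6 => h1 p ⟨h5, h6⟩) (fun p h5 h6 => h2 p ⟨h5, h6⟩)
    exact (H448.tri_det hα hβ hγ hl (H448.det_ne h hv hq)).1
  out := by
    intro X v q hv hq h1 h2
    exfalso
    obtain ⟨rfl, c1⟩ : T v = X ∧ True := ⟨hv.2, trivial⟩
    rcases L.L2 hv.1 hq.1 hq.2 with ⟨v', h5, h6, h7⟩ | ⟨q', h5, h6, h7⟩
    · exact h5 (h1 v' ⟨h6, h7⟩)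
    · exact h5 (h2 q' ⟨h6, h7.trans hq.2⟩)
  bad := by
    intro X v q q' hv hq hq' hne h1 h2 ho
    exfalso
    obtain ⟨rfl, c1⟩ : T v = X ∧ True := ⟨hv.2, trivial⟩
    obtain ⟨α, β, γ, hα, hβ, hγ, hl⟩ := L.L3 hv.1 hq.1 hq'.1 hq.2 hq'.2 hne
      (fun p h5 h6 => h1 p ⟨h5, h6⟩) (fun p h5 h6 => h2 p ⟨h5, h6⟩)
    obtain ⟨-, h5⟩ := H448.tri_det hα hβ hγ hl (H448.det_ne h hv hq)
    exact absurd ho.2 (not_lt.2 h5.le)

/-- the same, `Tab` of the third alternative is automatic -/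
theorem no_D_V' (h : Irr U T) (h4 : ∀ z, (T z).ncard ≤ 4)
    (hD : ∀ z a b c d, DPt T z a b c d → Good U T z ∨
      (H448.Tab T z ∧ H358.Has22 T z) ∨ (VW T z ∧ OppO T z)) :
    ∀ z a b c d, DPt T z a b c d → False :=
  no_D_V h h4 fun z a b c d hz => (hD z a b c d hz).imp id fun h5 => h5.imp id fun h6 =>
    ⟨tab_L23 h h6.1.toL23, h6⟩

end Vale.Agent.P032.S5.H12
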