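import Vale.Agent.P032.S5.H12.SNet
import Vale.Agent.P032.S5.H12.VDeg
import Vale.Agent.P032.S5.H12.VW

/-!
# P032: the instance of `SNet` over `Irr U T`

`snet_of`: if there is no (1,1), no (2,2), no full vertex and every (1,2) has its double ends on
different sides, then `SNet` holds: the sign law is available for all classes.
-/

open Set Filter Topology Metric

noncomputable section

namespace Vale.Agent.P032.S5.H12

open Vale.Agent.P032.Six Vale.Agent.P032.Words Vale.Agent.P032.S5.H767 Vale.Agent.P032.S5.H349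
open Vale.Agent.P032.Net.H672 Vale.Agent.P032.Net.H12

variable {U : Fin 6 → Set ℂ} {T : ℂ → Set (Fin 6)} {X : Set (Fin 6)} {z v q q' m w : ℂ}

/-- **the double ends are not antipodal** -/
theorem EE.nondeg (h : Irr U T) (h4 : ∀ z, (T z).ncard ≤ 4) (hv : EE T z v) (hq : EE T z q)
    (hq' : EE T z q') (hc : T q = (T v)ᶜ) (hc' : T q' = (T v)ᶜ) (hne : q ≠ q') :
    q + q' ≠ 2 * z := by
  have hwv := hv.rh h h4 hq hc
  have hwq := hv.rh' h h4 hq hc
  have hcv := hv.rh h h4 hq' hc'
  have hcq := hv.rh' h h4 hq' hc'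
  have hop := hv.anti h hq hc
  have hop' := hv.anti h hq' hc'
  have hvq : v ≠ q := (hv.en rfl).ne hv.card_v (hq.en hc)
  have hzw : z ≠ v + q - z := fun h5 => hop (by linear_combination -h5)
  have hcz : v + q' - z ≠ z := fun h5 => hop' (by linear_combination h5)
  have hcw : v + q' - z ≠ v + q - z := fun h5 => hne (by linear_combination -h5)
  have := no_touch h (ore_spec hv.1) (ore_spec hwv.1) (ore_spec hcv.1) hv.2 hwv.2 hcv.2 hzw
    (fun h5 => hvq (by linear_combination -h5))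
    (fun h5 => hzw (hv.unique_pair h hwv hq hc hwq hc h5))
    (fun h5 => hcz (hcv.unique_pair h hv hcq hc' hq hc h5))
    (fun h5 => hcw (hcv.unique_pair h hwv hcq hc' hwq hc h5))
  intro h5
  exact this (by linear_combination h5)

/-- the field `common` as a statement -/
def Common (T : ℂ → Set (Fin 6)) : Prop :=
  ∀ {w v q w' v' q' m : ℂ}, EE T w v → EE T w q → T q = (T v)ᶜ → EE T w' v' → EE T w' q' →
    T q' = (T v')ᶜ → w ≠ w' → (∀ i, i ∈ T w ∨ i ∈ T w') → dist m w = 1 → dist m w' = 1 →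
    w + w' ≠ 2 * m → (T v ∩ T w ∩ T w').ncard = 1 → (T v' ∩ T w' ∩ T w).ncard = 1 →
    (T m).ncard = 3 ∧
      (T m ∩ T w = T v ∩ T w ∨ T m ∩ T w = T q ∩ T w) ∧
      (T m ∩ T w' = T v' ∩ T w' ∨ T m ∩ T w' = T q' ∩ T w')

/-- the world without (1,1), (2,2) and full vertices -/
structure World (T : ℂ → Set (Fin 6)) : Prop where
  h11 : ∀ {z v q : ℂ}, EE T z v → EE T z q → T q = (T v)ᶜ →
    (∃ v', v' ≠ v ∧ EE T z v' ∧ T v' = T v) ∨ ∃ q', q' ≠ q ∧ EE T z q' ∧ T q' = T q
  h22 : ∀ z, ¬ H358.Has22 T z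
  sec : ∀ {z v q q' s : ℂ}, EE T z v → EE T z q → EE T z q' → q ≠ q' → T q = (T v)ᶜ →
    T q' = (T v)ᶜ → EE T (v + q - z) s → T s = (T v)ᶜ → s = q
  s12 : ∀ {z v q q' : ℂ}, EE T z v → EE T z q → EE T z q' → T q = (T v)ᶜ → T q' = (T v)ᶜ →
    q ≠ q' → (∀ m, EE T z m → T m = T v → m = v) →
    (∀ m, EE T z m → T m = (T v)ᶜ → m = q ∨ m = q') → cr (v - z) (q - z) * cr (v - z) (q' - z) < 0
  com : Common T

theorem World.single (W : World T) {M : ℂ} (m : Mid T (EE T) M v q q') {s : ℂ} (hs : EE T M s)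
    (e : T s = T v) : s = v := by
  by_contra hne
  exact W.h22 M ⟨v, s, q, q', m.hv, hs, fun h5 => hne h5.symm, m.hq, m.hq', m.ne, e, m.e, m.e'⟩

theorem le_two_mid (h : Irr U T) (h4 : ∀ z, (T z).ncard ≤ 4) {M : ℂ}
    (m : Mid T (EE T) M v q q') {s : ℂ} (hs : EE T M s) (e : T s = (T v)ᶜ) : s = q ∨ s = q' :=
  H448.le_two h h4 (X := T v) ⟨m.hv, rfl⟩ ⟨m.hq, m.e⟩ ⟨m.hq', m.e'⟩ m.ne ⟨hs, e⟩

/-- **the instance** -/
theorem World.snet (W : World T) (h : Irr U T) (h4 : ∀ z, (T z).ncard ≤ 4) :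
    SNet T (EE T) (ore T) (inn U T) where
  dist_e := fun hv => hv.dist
  rh := fun hv hq hc => ⟨hv.rh h h4 hq hc, hv.rh' h h4 hq hc⟩
  nz := fun {z v q} hv hq hc => by
    have h1 : v ≠ q := (hv.en rfl).ne hv.card_v (hq.en hc)
    exact cr_ne_of hv.dist hq.dist h1 (hv.anti h hq hc)
  no11 := W.h11
  two := fun m hs e => le_two_mid h h4 m hs e
  no22 := fun m hs e => W.single m hs e
  nofull := fun m hs e => W.sec m.hv m.hq m.hq' m.ne m.e m.e' hs e
  s12 := fun m => W.s12 m.hv m.hq m.hq' m.e m.e' m.ne (fun _ hs e => W.single m hs e)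
    fun _ hs e => le_two_mid h h4 m hs e
  nondeg := fun {M v q q'} m =>
    cr_ne_of m.hq.dist m.hq'.dist m.ne (EE.nondeg h h4 m.hv m.hq m.hq' m.e m.e' m.ne)
  card_v := fun hv => hv.card_v
  card_i := fun hv => hv.card_i'
  cov := fun hv hq hc => hv.cov h h4 hq hc
  ori := fun {z v} _ => ore_or T z v
  inn_mem := fun hv => hv.inn_mem h
  LP1 := fun hv hq hc => hv.lp1 h h4 hq hc
  LP2 := fun hq hv hv' h1 h2 => hq.1.lp2 h hv.1 hv'.1 h1 h2
  LP3 := fun hv hq hc hv' hp hc' hcz hcw => hv.lp3 h h4 hq hc hv' hp hc' hcz hcw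
  auto := fun hv hq hc hm hTm => hv.auto h h4 hq hc hm hTm
  common := fun e1 e2 e3 e1' e2' e3' hne hcv d d' n s s' => W.com e1 e2 e3 e1' e2' e3' hne hcv d d' n s s'

/-- the common points of two circles: only the points facts of the centres are used -/
theorem common_pts (h : Irr U T) (hW : ∀ z a b c d, DPt T z a b c d → PtV T z) : Common T := by
  intro w v q w' v' q' m e1 _ e3 e1' _ e3' hne hcov hmw hmw' hne2 hs hs'
  refine e1.common h e3 e1' e3' hne hcov hmw hmw' hne2 hs hs' ?_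
  obtain ⟨a, b, c, d, n1, n2⟩ := e1.names
  have D := e1.dpt h n1 n2
  obtain ⟨a', b', c', d', n1', n2'⟩ := e1'.names
  have D' := e1'.dpt h n1' n2'
  rcases hW w a b c d D m hmw with h3 | ⟨P, hPw, hP2, ⟨p, hp⟩, hTm⟩ | h3
  · exact h3
  · rcases hW w' a' b' c' d' D' m hmw' with h3 | ⟨P', hPw', hP2', ⟨p', hp'⟩, hTm'⟩ | h3
    · exact h3
    · exfalso
      have c1 : (T w')ᶜ ⊆ P := by
        intro i hi
        have h5 : i ∈ T m := by rw [hTm']; exact Or.inr hi
        rw [hTm] at h5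
        rcases h5 with h5 | h5
        · exact h5
        · rcases hcov i with h6 | h6
          · exact absurd h6 h5
          · exact absurd h6 hi
      have n1 : (T w')ᶜ.ncard = 2 := by
        have h5 := Set.ncard_add_ncard_compl (T w')
        rw [Nat.card_eq_fintype_card, Fintype.card_fin, e1'.card_z] at h5
        omega
      have c2 : (T w')ᶜ = P := Set.eq_of_subset_of_ncard_le c1 (by omega) (Set.toFinite _)
      have hPd : (P ∩ T w').ncard = 0 := by
        rw [← c2, compl_inter_self, Set.ncard_empty]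
      have hun : T w ∪ T w' = univ := eq_univ_of_forall hcov
      have hcard : (T w ∩ T w').ncard = 2 := by
        have h1 := Set.ncard_union_add_ncard_inter (T w) (T w') (Set.toFinite _) (Set.toFinite _)
        rw [hun, Set.ncard_univ, Nat.card_eq_fintype_card, Fintype.card_fin, e1.card_z,
          e1'.card_z] at h1
        omega
      rcases H358.pair_of_arc h e1 hPw hp with h5 | h5
      · rw [h5, inter_comm (T w) (T v)] at hPd
        omega
      · have h6 : (T w ∩ T w') = (T v ∩ T w ∩ T w') ∪ (P ∩ T w') := by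
          rw [h5]
          ext i
          simp only [mem_inter_iff, mem_union, Set.mem_sdiff]
          tauto
        have h7 := Set.ncard_union_le (T v ∩ T w ∩ T w') (P ∩ T w')
        rw [← h6] at h7
        omega
    · exfalso
      rcases h3 w a b c d D (by rw [dist_comm]; exact hmw) with h5 | h5
      · exact hne h5
      · exact hne2 h5
  · exfalso
    rcases h3 w' a' b' c' d' D' (by rw [dist_comm]; exact hmw') with h5 | h5
    · exact hne h5.symm
    · exact hne2 (by rw [← h5, add_comm])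

end Vale.Agent.P032.S5.H12
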