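import Vale.Agent.P032.Net.H672.End

/-!
# P032: the network of two-pair centres with triangles and middle centres: the sign law

`SNet`: every two-pair centre with ends of both complementary types has one end `v` of one type and
two ends `q`, `q'` of the other type, on different sides of the line of `v` and not antipodal.
`Sg ε z v q q'`: `ε (v - z) + β (q - z) + γ (q' - z) = 0` with `β, γ > 0`; `ε = 1` for a triangle,
`ε = -1` if `v` is between `q` and `q'`.

* `flip_v`: `o (v + q - z) v = - ε o z v`;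
* `sign_law`: `ε_N o z q = ε_N' o z q'` for `N = v + q - z`, `N' = v + q' - z`;
* `kill_V`: the class (V) does not exist.
-/

open Complex Set

set_option linter.dupNamespace false

namespace Vale.Agent.P032.Net.H12

open Vale.Agent.P032.Net.H672

/-- the facts on palettes and ends at the two-pair centres, triangles or not -/
structure SNet (T : ℂ → Set (Fin 6)) (E : ℂ → ℂ → Prop)
    (o : ℂ → ℂ → ℝ) (inn : ℂ → ℂ → Fin 6) : Prop where
  dist_e : ∀ {z v}, E z v → dist v z = 1
  rh : ∀ {z v q}, E z v → E z q → T q = (T v)ᶜ → E (v + q - z) v ∧ E (v + q - z) q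
  nz : ∀ {z v q}, E z v → E z q → T q = (T v)ᶜ → dt (v - z) (q - z) ≠ 0
  no11 : ∀ {z v q}, E z v → E z q → T q = (T v)ᶜ →
    (∃ v', v' ≠ v ∧ E z v' ∧ T v' = T v) ∨ ∃ q', q' ≠ q ∧ E z q' ∧ T q' = T q
  two : ∀ {M v q q' s}, Mid T E M v q q' → E M s → T s = (T v)ᶜ → s = q ∨ s = q'
  no22 : ∀ {M v q q' s}, Mid T E M v q q' → E M s → T s = T v → s = v
  nofull : ∀ {M v q q' s}, Mid T E M v q q' → E (v + q - M) s → T s = (T v)ᶜ → s = q
  s12 : ∀ {M v q q'}, Mid T E M v q q' → dt (v - M) (q - M) * dt (v - M) (q' - M) < 0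
  nondeg : ∀ {M v q q'}, Mid T E M v q q' → dt (q - M) (q' - M) ≠ 0
  card_v : ∀ {z v}, E z v → (T v).ncard = 3
  card_i : ∀ {z v}, E z v → (T v ∩ T z).ncard = 2
  cov : ∀ {z v q}, E z v → E z q → T q = (T v)ᶜ → ∀ i, i ∈ T z ∨ i ∈ T (v + q - z)
  ori : ∀ {z v}, E z v → o z v = 1 ∨ o z v = -1
  inn_mem : ∀ {z v}, E z v → inn z v ∈ T v ∩ T z
  LP1 : ∀ {z v q}, E z v → E z q → T q = (T v)ᶜ →
    (0 < o z v * dt (z - v) (q - z) ↔ inn (v + q - z) v ∈ T z)
  LP2 : ∀ {z q v v'}, Full T E z q → Full T E z v → Full T E z v' → T v ∩ T z = T z \ T q →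
    T v' ∩ T z = T z \ T q →
    (inn z v = inn z v' ↔ 0 < dt (q - z) (v - z) * dt (q - z) (v' - z))
  LP3 : ∀ {z v q c p}, E z v → E z q → T q = (T v)ᶜ → E c v → E c p → T p = (T v)ᶜ →
    c ≠ z → c ≠ v + q - z → ∃ a b : ℝ, 0 ≤ a ∧ 0 ≤ b ∧
      ((o c v : ℝ) : ℂ) * (c - v) + (a : ℂ) * (((o z v : ℝ) : ℂ) * (z - v))
        + (b : ℂ) * (((o (v + q - z) v : ℝ) : ℂ) * (q - z)) = 0
  auto : ∀ {z v q m}, E z v → E z q → T q = (T v)ᶜ → dist m z = 1 → T m = T v → E z m
  common : ∀ {w v q w' v' q' m}, E w v → E w q → T q = (T v)ᶜ → E w' v' → E w' q' →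
    T q' = (T v')ᶜ → w ≠ w' → (∀ i, i ∈ T w ∨ i ∈ T w') → dist m w = 1 → dist m w' = 1 →
    w + w' ≠ 2 * m → (T v ∩ T w ∩ T w').ncard = 1 → (T v' ∩ T w' ∩ T w).ncard = 1 →
    (T m).ncard = 3 ∧
      (T m ∩ T w = T v ∩ T w ∨ T m ∩ T w = T q ∩ T w) ∧
      (T m ∩ T w' = T v' ∩ T w' ∨ T m ∩ T w' = T q' ∩ T w')

/-- the sign of a centre: `1` for a triangle, `-1` if `v` is between `q` and `q'` -/
def Sg (ε : ℝ) (M v q q' : ℂ) : Prop :=
  (ε = 1 ∨ ε = -1) ∧ ∃ β γ : ℝ, 0 < β ∧ 0 < γ ∧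
    (ε : ℂ) * (v - M) + (β : ℂ) * (q - M) + (γ : ℂ) * (q' - M) = 0

theorem Sg.swap {ε : ℝ} {M v q q' : ℂ} (h : Sg ε M v q q') : Sg ε M v q' q := by
  obtain ⟨h1, β, γ, hβ, hγ, h2⟩ := h
  exact ⟨h1, γ, β, hγ, hβ, by linear_combination h2⟩

theorem Sg.uniq {ε δ : ℝ} {M v q q' : ℂ} (h : Sg ε M v q q') (h' : Sg δ M v q q')
    (hn : dt (q - M) (q' - M) ≠ 0) : ε = δ := by
  obtain ⟨h1, β, γ, hβ, hγ, h2⟩ := h
  obtain ⟨h1', β', γ', hβ', hγ', h2'⟩ := h'
  have e1 := dt_lin (q - M) h2
  have e2 := dt_lin (q - M) h2'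
  rw [dt_self, mul_zero, add_zero] at e1 e2
  have e3 : γ * dt (q - M) (q' - M) = -(ε * dt (q - M) (v - M)) := by linarith
  have e4 : γ' * dt (q - M) (q' - M) = -(δ * dt (q - M) (v - M)) := by linarith
  have e5 : (γ * dt (q - M) (q' - M)) * (γ' * dt (q - M) (q' - M)) =
      ε * δ * (dt (q - M) (v - M)) ^ 2 := by rw [e3, e4]; ring
  have e6 : 0 < (γ * dt (q - M) (q' - M)) * (γ' * dt (q - M) (q' - M)) := by
    have : (γ * dt (q - M) (q' - M)) * (γ' * dt (q - M) (q' - M)) =
      γ * γ' * (dt (q - M) (q' - M)) ^ 2 := by ring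
    rw [this]
    positivity
  rw [e5] at e6
  rcases h1 with rfl | rfl <;> rcases h1' with rfl | rfl
  · rfl
  · nlinarith [sq_nonneg (dt (q - M) (v - M))]
  · nlinarith [sq_nonneg (dt (q - M) (v - M))]
  · rfl

theorem exists_sg_of {M v q q' : ℂ} (hs : dt (v - M) (q - M) * dt (v - M) (q' - M) < 0)
    (hn : dt (q - M) (q' - M) ≠ 0) : ∃ ε, Sg ε M v q q' := by
  have key : (dt (q - M) (q' - M) : ℂ) * (v - M) + ((-dt (v - M) (q' - M) : ℝ) : ℂ) * (q - M) +
      (dt (v - M) (q - M) : ℂ) * (q' - M) = 0 := by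
    apply Complex.ext
    · simp [dt]; ring
    · simp [dt]; ring
  set a := dt (v - M) (q - M) with ha
  set b := dt (v - M) (q' - M) with hb
  set c := dt (q - M) (q' - M) with hc
  -- divide by `c` or `-c`
  have hab : (0 < a ∧ b < 0) ∨ (a < 0 ∧ 0 < b) := by
    rcases lt_trichotomy a 0 with h1 | h1 | h1
    · exact Or.inr ⟨h1, by by_contra h2; push Not at h2; nlinarith⟩
    · rw [h1] at hs; simp at hs
    · exact Or.inl ⟨h1, by by_contra h2; push Not at h2; nlinarith⟩
  have hcc : (c : ℂ) ≠ 0 := by exact_mod_cast hn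
  rcases hab with ⟨h1, h2⟩ | ⟨h1, h2⟩ <;> rcases lt_or_gt_of_ne hn with h3 | h3
  · refine ⟨-1, Or.inr rfl, b / c, a / -c, div_pos_of_neg_of_neg h2 h3, div_pos h1 (by linarith), ?_⟩
    push_cast at key ⊢
    field_simp
    linear_combination -key
  · refine ⟨1, Or.inl rfl, -b / c, a / c, div_pos (by linarith) h3, div_pos h1 h3, ?_⟩
    push_cast at key ⊢
    field_simp
    linear_combination key
  · refine ⟨1, Or.inl rfl, -b / c, a / c, div_pos_of_neg_of_neg (by linarith) h3,
      div_pos_of_neg_of_neg h1 h3, ?_⟩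
    push_cast at key ⊢
    field_simp
    linear_combination key
  · refine ⟨-1, Or.inr rfl, b / c, a / -c, div_pos h2 h3, div_pos_of_neg_of_neg h1 (by linarith), ?_⟩
    push_cast at key ⊢
    field_simp
    linear_combination -key

theorem pm_sq {x : ℝ} (h : x = 1 ∨ x = -1) : x * x = 1 := by rcases h with rfl | rfl <;> norm_num

/-- equal signs from a positive factor -/
theorem pm_eq {x y r : ℝ} (hx : x = 1 ∨ x = -1) (hy : y = 1 ∨ y = -1) (hr : 0 ≤ r)
    (h : x = y * r) : x = y := by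
  rcases hx with rfl | rfl <;> rcases hy with rfl | rfl <;> linarith

theorem pm_ne {x y : ℝ} (hx : x = 1 ∨ x = -1) (hy : y = 1 ∨ y = -1) (h : x ≠ y) : x = -y := by
  rcases hx with rfl | rfl <;> rcases hy with rfl | rfl
  · exact absurd rfl h
  · norm_num
  · norm_num
  · exact absurd rfl h

variable {T : ℂ → Set (Fin 6)} {E : ℂ → ℂ → Prop} {o : ℂ → ℂ → ℝ} {inn : ℂ → ℂ → Fin 6}

namespace SNet

variable {M v q q' w w' : ℂ} {ε δ : ℝ}

theorem mid_swap (m : Mid T E M v q q') : Mid T E M v q' q :=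
  ⟨m.hv, m.hq', m.hq, m.e', m.e, m.ne.symm⟩

theorem exists_sg (D : SNet T E o inn) (m : Mid T E M v q q') : ∃ ε, Sg ε M v q q' :=
  exists_sg_of (D.s12 m) (D.nondeg m)

/-- the second centre has the end `v` twice -/
theorem mid_side (D : SNet T E o inn) (m : Mid T E M v q q') :
    ∃ v', Mid T E (v + q - M) q v v' := by
  obtain ⟨h1, h2⟩ := D.rh m.hv m.hq m.e
  have ec : T v = (T q)ᶜ := by rw [m.e, compl_compl]
  rcases D.no11 h2 h1 ec with ⟨q'', n1, n2, n3⟩ | ⟨v', n1, n2, n3⟩
  · exact absurd (D.nofull m n2 (n3.trans m.e)) n1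
  · exact ⟨v', h2, h1, n2, ec, n3.trans ec, n1.symm⟩

theorem ne_z (D : SNet T E o inn) {z : ℂ} (hv : E z v) (hq : E z q) (e : T q = (T v)ᶜ) :
    v + q - z ≠ z := by
  intro h
  apply D.nz hv hq e
  have : q - z = -(v - z) := by linear_combination h
  rw [this, dt_neg_right, dt_self, neg_zero]

/-- **FLIP** with signs -/
theorem flip_v (D : SNet T E o inn) (m : Mid T E M v q q') (hε : Sg ε M v q q') :
    o (v + q - M) v = -ε * o M v := by
  obtain ⟨a1, a2⟩ := D.rh m.hv m.hq m.e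
  obtain ⟨b1, b2⟩ := D.rh m.hv m.hq' m.e'
  have n1 : v + q' - M ≠ M := D.ne_z m.hv m.hq' m.e'
  have n2 : v + q' - M ≠ v + q - M := fun h => m.ne (by linear_combination -h)
  obtain ⟨a, b, ha, hb, h⟩ := D.LP3 m.hv m.hq m.e b1 b2 m.e' n1 n2
  obtain ⟨hε1, β, γ, hβ, hγ, hg⟩ := hε
  have hn := D.nondeg m
  rw [show v + q' - M - v = q' - M by ring] at h
  have hg' : ((M - v : ℂ)) = ((ε * β : ℝ) : ℂ) * (q - M) + ((ε * γ : ℝ) : ℂ) * (q' - M) := by
    have hεε : (ε : ℂ) * ε = 1 := by exact_mod_cast pm_sq hε1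
    push_cast
    linear_combination (-(ε : ℂ)) * hg + (v - M) * hεε
  rw [hg'] at h
  -- coefficients
  have c1 := congrArg (fun x : ℂ => dt (q - M) x) h
  have c2 := congrArg (fun x : ℂ => dt (q' - M) x) h
  have d1 : dt (q - M) (((o (v + q' - M) v : ℝ) : ℂ) * (q' - M) + (a : ℂ) *
      (((o M v : ℝ) : ℂ) * (((ε * β : ℝ) : ℂ) * (q - M) + ((ε * γ : ℝ) : ℂ) * (q' - M))) +
      (b : ℂ) * (((o (v + q - M) v : ℝ) : ℂ) * (q - M))) =
      (o (v + q' - M) v + a * o M v * (ε * γ)) * dt (q - M) (q' - M) := by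
    unfold dt; simp; ring
  have d2 : dt (q' - M) (((o (v + q' - M) v : ℝ) : ℂ) * (q' - M) + (a : ℂ) *
      (((o M v : ℝ) : ℂ) * (((ε * β : ℝ) : ℂ) * (q - M) + ((ε * γ : ℝ) : ℂ) * (q' - M))) +
      (b : ℂ) * (((o (v + q - M) v : ℝ) : ℂ) * (q - M))) =
      -(b * o (v + q - M) v + a * o M v * (ε * β)) * dt (q - M) (q' - M) := by
    unfold dt; simp; ring
  have d3 : ∀ x : ℂ, dt x 0 = 0 := by intro x; unfold dt; simp
  simp only [d1, d2, d3] at c1 c2
  have e1 : o (v + q' - M) v + a * o M v * (ε * γ) = 0 := by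
    rcases mul_eq_zero.1 c1 with h5 | h5
    · exact h5
    · exact absurd h5 hn
  have e2 : b * o (v + q - M) v + a * o M v * (ε * β) = 0 := by
    rcases mul_eq_zero.1 c2 with h5 | h5
    · linarith
    · exact absurd h5 hn
  have hoN := D.ori a1
  have hoN' := D.ori b1
  have hoM := D.ori m.hv
  have ha0 : 0 < a := by
    rcases ha.lt_or_eq with h5 | h5
    · exact h5
    · rw [← h5] at e1
      simp at e1
      rcases hoN' with h6 | h6 <;> rw [h6] at e1 <;> norm_num at e1
  have hb0 : 0 < b := by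
    rcases hb.lt_or_eq with h5 | h5
    · exact h5
    · rw [← h5] at e2
      have : a * o M v * (ε * β) = 0 := by linarith
      have h7 : (a * β) * (o M v * ε) = 0 := by linarith
      rcases mul_eq_zero.1 h7 with h8 | h8
      · nlinarith
      · rcases hoM with h6 | h6 <;> rcases hε1 with h9 | h9 <;> rw [h6, h9] at h8 <;>
          norm_num at h8
  have hpm : -ε * o M v = 1 ∨ -ε * o M v = -1 := by
    rcases hoM with h6 | h6 <;> rcases hε1 with h9 | h9 <;> rw [h6, h9] <;> norm_num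
  refine pm_eq hoN hpm (r := a * β / b) (by positivity) ?_
  field_simp
  linarith

theorem flip_v' (D : SNet T E o inn) (m : Mid T E M v q q') (hε : Sg ε M v q q') :
    o (v + q' - M) v = -ε * o M v := D.flip_v (mid_swap m) hε.swap

/-- FLIP at the double ends: the sign is that of the second centre -/
theorem flip_q (D : SNet T E o inn) (m1 : Mid T E (v + q - M) q v w)
    (h1 : Sg ε (v + q - M) q v w) : o M q = -ε * o (v + q - M) q := by
  have h := D.flip_v m1 h1
  rwa [show q + v - (v + q - M) = M by ring] at h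

theorem flip_q' (D : SNet T E o inn) (m1 : Mid T E (v + q - M) q v w)
    (h1 : Sg ε (v + q - M) q v w) : o (v + q - M) q = -ε * o M q := by
  have h := D.flip_q m1 h1
  have := pm_sq h1.1
  rw [h]
  linear_combination (-o (v + q - M) q) * this

theorem be2 (D : SNet T E o inn) (m1 : Mid T E (v + q - M) q v w)
    (h1 : Sg ε (v + q - M) q v w) :
    inn M q ∈ T (v + q - M) ↔ 0 < ε * o M q * dt (v - M) (q - M) := by
  have h := D.LP1 m1.hv m1.hq m1.e
  rw [show q + v - (v + q - M) = M by ring, D.flip_q' m1 h1, show v + q - M - q = v - M by ring,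
    show v - (v + q - M) = -(q - M) by ring, dt_neg_right] at h
  rw [← h]
  constructor <;> intro h' <;> linarith

theorem cov' (D : SNet T E o inn) (m : Mid T E M v q q') (i : Fin 6) :
    i ∈ T M ∨ i ∈ T (v + q - M) := D.cov m.hv m.hq m.e i

/-- the inner colour of the single arc is a colour of exactly one of the second centres -/
theorem opp' (D : SNet T E o inn) (m : Mid T E M v q q') :
    (inn M v ∈ T (v + q - M) ↔ ¬ inn M v ∈ T (v + q' - M)) := by
  obtain ⟨ε, hε⟩ := D.exists_sg m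
  obtain ⟨a1, a2⟩ := D.rh m.hv m.hq m.e
  obtain ⟨b1, b2⟩ := D.rh m.hv m.hq' m.e'
  have h1 := D.LP1 a1 a2 m.e
  have h2 := D.LP1 b1 b2 m.e'
  rw [show v + q - (v + q - M) = M by ring, show v + q - M - v = q - M by ring,
    show q - (v + q - M) = -(v - M) by ring, dt_neg_right, dt_comm (v - M) (q - M), neg_neg,
    D.flip_v m hε] at h1
  rw [show v + q' - (v + q' - M) = M by ring, show v + q' - M - v = q' - M by ring,
    show q' - (v + q' - M) = -(v - M) by ring, dt_neg_right, dt_comm (v - M) (q' - M), neg_neg,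
    D.flip_v' m hε] at h2
  rw [← h1, ← h2]
  have hpm : -ε * o M v = 1 ∨ -ε * o M v = -1 := by
    rcases D.ori m.hv with h6 | h6 <;> rcases hε.1 with h9 | h9 <;> rw [h6, h9] <;> norm_num
  have h := D.s12 m
  rcases hpm with ho | ho <;> rw [ho] <;> constructor <;> intro h1
  · nlinarith
  · by_contra h2; push Not at h1 h2; nlinarith
  · nlinarith
  · by_contra h2; push Not at h1 h2; nlinarith

/-- **(al)** the two second centres do not have all six colours -/
theorem al (D : SNet T E o inn) (m : Mid T E M v q q') :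
    ∃ i, i ∉ T (v + q - M) ∧ i ∉ T (v + q' - M) := by
  by_contra hcon
  push Not at hcon
  have hall : ∀ i, i ∈ T (v + q - M) ∨ i ∈ T (v + q' - M) := fun i =>
    or_iff_not_imp_left.2 (hcon i)
  obtain ⟨v1, m1⟩ := D.mid_side m
  obtain ⟨v2, m2⟩ := D.mid_side (mid_swap m)
  have hqq := D.nondeg m
  have hneq : v + q - M ≠ v + q' - M := fun h => m.ne (by linear_combination h)
  have dq : dist q M = 1 := D.dist_e m.hq
  have dq' : dist q' M = 1 := D.dist_e m.hq'
  set p : ℂ := v + q + q' - 2 * M with hp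
  have d1 : dist p (v + q - M) = 1 := by
    rw [dist_eq_norm, show p - (v + q - M) = q' - M by rw [hp]; ring, ← dist_eq_norm, dq']
  have d2 : dist p (v + q' - M) = 1 := by
    rw [dist_eq_norm, show p - (v + q' - M) = q - M by rw [hp]; ring, ← dist_eq_norm, dq]
  have n2 : (v + q - M) + (v + q' - M) ≠ 2 * p := by
    intro h
    apply hqq
    have : q' - M = -(q - M) := by rw [hp] at h; linear_combination -h
    rw [this, dt_neg_right, dt_self, neg_zero]
  have npv : p ≠ v := by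
    intro h
    apply n2
    rw [h]
    rw [hp] at h
    linear_combination h
  obtain ⟨h3, hA, hB⟩ := D.common m1.hq m1.hv (by rw [m.e]) m2.hq m2.hv (by rw [m.e']) hneq hall
    d1 d2 n2 (inter_one (D.card_v m.hv) (D.card_i m1.hq) (D.card_i m2.hq) hall)
    (inter_one (D.card_v m.hv) (D.card_i m2.hq) (D.card_i m1.hq) fun i => (hall i).symm)
  have hcov : ∀ i, i ∈ T p ↔ i ∈ T p ∩ T (v + q - M) ∨ i ∈ T p ∩ T (v + q' - M) := by
    intro i
    constructor
    · intro hi
      rcases hall i with h | h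
      · exact Or.inl ⟨hi, h⟩
      · exact Or.inr ⟨hi, h⟩
    · rintro (h | h) <;> exact h.1
  rcases hA with hA | hA <;> rcases hB with hB | hB
  · -- the type of `v`
    have hT : T p = T v := by
      ext i
      rw [hcov, hA, hB]
      constructor
      · rintro (h | h) <;> exact h.1
      · intro hi
        rcases hall i with h | h
        · exact Or.inl ⟨hi, h⟩
        · exact Or.inr ⟨hi, h⟩
    have e1 : E (v + q - M) p := D.auto m1.hq m1.hv (by rw [m.e]) d1 hT
    have mp : Mid T E (v + q - M) q v p :=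
      ⟨m1.hv, m1.hq, e1, m1.e, by rw [hT]; exact m1.e, npv.symm⟩
    have x1 := D.s12 mp
    have x2 := D.s12 m
    rw [show q - (v + q - M) = -(v - M) by ring, show v - (v + q - M) = -(q - M) by ring,
      show p - (v + q - M) = q' - M by rw [hp]; ring, dt_neg_left, dt_neg_right, dt_neg_left] at x1
    nlinarith
  · exfalso
    have hdis : Disjoint (T p ∩ T (v + q - M)) (T p ∩ T (v + q' - M)) := by
      rw [hA, hB, m.e', Set.disjoint_left]
      rintro i ⟨h, -⟩ ⟨h', -⟩
      exact h' h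
    have hc : (T p).ncard = (T p ∩ T (v + q - M)).ncard + (T p ∩ T (v + q' - M)).ncard := by
      rw [← ncard_union_eq hdis (toFinite _) (toFinite _)]
      congr 1
      ext i
      exact hcov i
    rw [hA, hB, D.card_i m1.hq, D.card_i m2.hv, h3] at hc
    omega
  · exfalso
    have hdis : Disjoint (T p ∩ T (v + q - M)) (T p ∩ T (v + q' - M)) := by
      rw [hA, hB, m.e, Set.disjoint_left]
      rintro i ⟨h, -⟩ ⟨h', -⟩
      exact h h'
    have hc : (T p).ncard = (T p ∩ T (v + q - M)).ncard + (T p ∩ T (v + q' - M)).ncard := by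
      rw [← ncard_union_eq hdis (toFinite _) (toFinite _)]
      congr 1
      ext i
      exact hcov i
    rw [hA, hB, D.card_i m1.hv, D.card_i m2.hq, h3] at hc
    omega
  · -- the type of `q`
    have hT : T p = T q := by
      ext i
      rw [hcov, hA, hB, m.e, m.e']
      constructor
      · rintro (h | h) <;> exact h.1
      · intro hi
        rcases hall i with h | h
        · exact Or.inl ⟨hi, h⟩
        · exact Or.inr ⟨hi, h⟩
    have e1 : E (v + q - M) p := D.auto m1.hv m1.hq m1.e d1 hT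
    have e2 : E (v + q' - M) p := D.auto m2.hv m2.hq m2.e d2 (by rw [hT, m.e, m.e'])
    have u1 := D.no22 m1 e1 hT
    have u2 := D.no22 m2 e2 (by rw [hT, m.e, m.e'])
    exact m.ne (u1.symm.trans u2)

theorem sign_iff {a b x y : ℝ} (ha : a = 1 ∨ a = -1) (hb : b = 1 ∨ b = -1) (hxy : x * y < 0)
    (h : (0 < a * x) ↔ ¬ (0 < b * y)) : a = b := by
  have hx : x ≠ 0 := by rintro rfl; simp at hxy
  have hy : y ≠ 0 := by rintro rfl; simp at hxy
  rcases ha with rfl | rfl <;> rcases hb with rfl | rfl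
  · rfl
  · exfalso
    rcases lt_or_gt_of_ne hx with h1 | h1
    · have h2 : 0 < y := by nlinarith
      have : ¬ (0 < (-1 : ℝ) * y) := by linarith
      have := h.2 this
      linarith
    · have h2 : y < 0 := by nlinarith
      exact h.1 (by linarith) (by linarith)
  · exfalso
    rcases lt_or_gt_of_ne hx with h1 | h1
    · have h2 : 0 < y := by nlinarith
      exact h.1 (by linarith) (by linarith)
    · have h2 : y < 0 := by nlinarith
      have : ¬ (0 < (1 : ℝ) * y) := by linarith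
      have := h.2 this
      linarith
  · rfl

theorem inter_eq_diff {z v q : ℂ} (e : T q = (T v)ᶜ) : T q ∩ T z = T z \ T v := by
  rw [e]
  ext i
  simp only [mem_inter_iff, mem_compl_iff, mem_sdiff]
  tauto

theorem pm_mul {a b : ℝ} (ha : a = 1 ∨ a = -1) (hb : b = 1 ∨ b = -1) : a * b = 1 ∨ a * b = -1 := by
  rcases ha with rfl | rfl <;> rcases hb with rfl | rfl <;> norm_num

/-- **the sign law**: `ε_N o z q = ε_N' o z q'` -/
theorem sign_law (D : SNet T E o inn) (m : Mid T E M v q q') (m1 : Mid T E (v + q - M) q v w)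
    (m2 : Mid T E (v + q' - M) q' v w') (h1 : Sg ε (v + q - M) q v w)
    (h2 : Sg δ (v + q' - M) q' v w') : ε * o M q = δ * o M q' := by
  obtain ⟨i, hi, hi'⟩ := D.al m
  have hiM : i ∈ T M := (D.cov' m i).resolve_right hi
  have hop := D.opp' m
  have hmv := D.inn_mem m.hv
  have hiv : i ∉ T v := by
    intro hiv
    by_cases hji : inn M v = i
    · rw [hji] at hop
      exact hi (hop.2 hi')
    · exact hop.1 (mem_of_ne (D.card_v m.hv) (D.card_i m1.hq) hiv hi hmv.1 hji)
        (mem_of_ne (D.card_v m.hv) (D.card_i m2.hq) hiv hi' hmv.1 hji)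
  have hiq : i ∈ T q := by rw [m.e]; exact hiv
  have hiq' : i ∈ T q' := by rw [m.e']; exact hiv
  have hq := D.inn_mem m.hq
  have hq' := D.inn_mem m.hq'
  have k1 : inn M q ∈ T (v + q - M) ↔ inn M q ≠ i :=
    ⟨fun h h' => hi (h' ▸ h), fun h => mem_of_ne (D.card_v m.hq) (D.card_i m1.hv) hiq hi hq.1 h⟩
  have k2 : inn M q' ∈ T (v + q' - M) ↔ inn M q' ≠ i :=
    ⟨fun h h' => hi' (h' ▸ h), fun h =>
      mem_of_ne (D.card_v m.hq') (D.card_i m2.hv) hiq' hi' hq'.1 h⟩
  have hop2 := D.s12 m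
  have hne : inn M q ≠ inn M q' := by
    intro h
    have := (D.LP2 m.fv m.fq m.fq' (inter_eq_diff m.e) (inter_eq_diff m.e')).1 h
    linarith
  have k3 : inn M q ≠ i ↔ ¬ inn M q' ≠ i := by
    constructor
    · intro h h'
      obtain ⟨x, y, hxy, hS⟩ := ncard_eq_two.1 (D.card_i m.hq)
      have a1 : i ∈ T q ∩ T M := ⟨hiq, hiM⟩
      have a3 : inn M q' ∈ T q ∩ T M := ⟨by rw [m.e, ← m.e']; exact hq'.1, hq'.2⟩
      rw [hS] at a1 a3 hq
      simp only [mem_insert_iff, mem_singleton_iff] at a1 a3 hq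
      rcases a1 with a1 | a1 <;> rcases hq with hq | hq <;> rcases a3 with a3 | a3 <;>
        first
          | exact h (hq.trans a1.symm)
          | exact h' (a3.trans a1.symm)
          | exact hne (hq.trans a3.symm)
    · intro h h'
      push Not at h
      exact hne (h'.trans h.symm)
  refine sign_iff (pm_mul h1.1 (D.ori m.hq)) (pm_mul h2.1 (D.ori m.hq')) hop2 ?_
  rw [← D.be2 m1 h1, ← D.be2 m2 h2, k1, k2]
  exact k3

/-- the rule of the class (V) at a centre -/
def VR (T : ℂ → Set (Fin 6)) (E : ℂ → ℂ → Prop) (o : ℂ → ℂ → ℝ) (z : ℂ) : Prop :=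
  ∀ {v q q' : ℂ} {ε : ℝ}, Mid T E z v q q' → Sg ε z v q q' →
    (o z q = o z v → 0 < o z v * dt (v - z) (q - z) ∧
      (ε = -1 → 1 / 2 < (v - z).re * (q - z).re + (v - z).im * (q - z).im)) ∧
    (o z q ≠ o z v → o z v * dt (v - z) (q - z) < 0 ∧
      (v - z).re * (q - z).re + (v - z).im * (q - z).im < 1 / 2)

theorem kill_aux (D : SNet T E o inn)
    (hO : ∀ {M v q q' : ℂ}, Mid T E M v q q' → Sg (-1) M v q q' → VR T E o M)
    (hV : VR T E o M) (m : Mid T E M v q q') (ht : Sg 1 M v q q') (h1 : o M q = o M v)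
    (h2 : o M q' ≠ o M v) : False := by
  obtain ⟨w, m1⟩ := D.mid_side m
  obtain ⟨w', m2⟩ := D.mid_side (mid_swap m)
  obtain ⟨ε, hε⟩ := D.exists_sg m1
  obtain ⟨δ, hδ⟩ := D.exists_sg m2
  have hs := D.sign_law m m1 m2 hε hδ
  have hoq := D.ori m.hq
  have hoq' := D.ori m.hq'
  have hov := D.ori m.hv
  have hq' : o M q' = -o M v := pm_ne hoq' hov h2
  rw [h1, hq'] at hs
  have hεδ : ε = -δ := by
    rcases hov with h' | h' <;> rw [h'] at hs <;> linarith
  have f1 := D.flip_v m ht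
  have f2 := D.flip_v' m ht
  have g1 := D.flip_q' m1 hε
  have g2 := D.flip_q' m2 hδ
  obtain ⟨r1, -⟩ := hV m ht
  obtain ⟨-, r2⟩ := hV (mid_swap m) ht.swap
  rcases hε.1 with h | h
  · -- the second centre at `q'` is a middle centre
    have hδ1 : δ = -1 := by linarith
    rw [hδ1] at hδ g2
    have hR := (hO m2 hδ) m2 hδ
    have e1 : o (v + q' - M) v = o (v + q' - M) q' := by rw [f2, g2, hq']; ring
    have h5 := (hR.1 e1).2 rfl
    rw [show q' - (v + q' - M) = -(v - M) by ring, show v - (v + q' - M) = -(q' - M) by ring] at h5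
    have h6 := (r2 h2).2
    simp only [Complex.neg_re, Complex.neg_im] at h5
    linarith
  · rw [h] at hε g1
    have hR := (hO m1 hε) m1 hε
    have e1 : o (v + q - M) v ≠ o (v + q - M) q := by
      rw [f1, g1, h1]
      rcases hov with h' | h' <;> rw [h'] <;> norm_num
    have h5 := (hR.2 e1).1
    rw [show q - (v + q - M) = -(v - M) by ring, show v - (v + q - M) = -(q - M) by ring,
      dt_neg_left, dt_neg_right, neg_neg, g1, h1] at h5
    have h6 := (r1 h1).1
    linarith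

/-- **the class (V) does not exist**: a centre with the rule, a triangle in this network, with
different orientations at the two double ends -/
theorem kill_V (D : SNet T E o inn)
    (hO : ∀ {M v q q' : ℂ}, Mid T E M v q q' → Sg (-1) M v q q' → VR T E o M)
    (hV : VR T E o M) (m : Mid T E M v q q') (ht : Sg 1 M v q q') (h1 : o M q ≠ o M q') :
    False := by
  by_cases h2 : o M q = o M v
  · exact D.kill_aux hO hV m ht h2 fun h3 => h1 (h2.trans h3.symm)
  · refine D.kill_aux hO hV (mid_swap m) ht.swap ?_ h2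
    have e1 := pm_ne (D.ori m.hq) (D.ori m.hv) h2
    have e2 := pm_ne (D.ori m.hq) (D.ori m.hq') h1
    linarith

end SNet

end Vale.Agent.P032.Net.H12
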