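import Vale.Agent.P032.S5.H12.SInst
import Vale.Agent.P032.S5.H503.WebI2

/-!
# P032: the class (V) (two antipodal special ends), with middle centres

`VV T z`: the facts at a centre of the class (V): no (1,1); the double ends of a (1,2) are on
different sides; the rule of helper897 on orientations and angles; the points with more than three
colours are harmless or have at most two antipodal two-pair neighbours.
`VT T z`: in some network `z` is a triangle whose double ends have different orientations.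
`no_D_V3`: every two-pair centre is good, or has a (2,2) network, or is of class (V): impossible.
-/

open Set Filter Topology Metric

noncomputable section

namespace Vale.Agent.P032.S5.H12

open Vale.Agent.P032.Six Vale.Agent.P032.Words Vale.Agent.P032.S5.H767 Vale.Agent.P032.S5.H349
open Vale.Agent.P032.Net.H672 Vale.Agent.P032.Net.H12
open Vale.Agent.P032.Net (Opp Bad22 Web1 det)

variable {U : Fin 6 → Set ℂ} {T : ℂ → Set (Fin 6)} {X : Set (Fin 6)} {z v q q' m w : ℂ}

/-- `Sg (-1)` is `Opp` -/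
theorem opp_of_sg {M v q q' : ℂ} (h : Sg (-1) M v q q')
    (hn : Net.H672.dt (q - M) (q' - M) ≠ 0) : Opp (v - M) (q - M) (q' - M) := by
  obtain ⟨-, β, γ, hβ, hγ, h2⟩ := h
  have e1 : v - M = (β : ℂ) * (q - M) + (γ : ℂ) * (q' - M) := by
    push_cast at h2; linear_combination -h2
  have d1 : det (q - M) (v - M) = γ * Net.H672.dt (q - M) (q' - M) := by
    rw [e1]; unfold det Net.H672.dt; simp; ring
  have d2 : det (v - M) (q' - M) = β * Net.H672.dt (q - M) (q' - M) := by
    rw [e1]; unfold det Net.H672.dt; simp; ring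
  have d3 : det (q - M) (q' - M) = Net.H672.dt (q - M) (q' - M) := rfl
  have hp : 0 < Net.H672.dt (q - M) (q' - M) ^ 2 := by positivity
  constructor
  · rw [d1, d2, show γ * Net.H672.dt (q - M) (q' - M) * (β * Net.H672.dt (q - M) (q' - M)) =
      γ * β * Net.H672.dt (q - M) (q' - M) ^ 2 by ring]
    positivity
  · rw [d1, d3, show γ * Net.H672.dt (q - M) (q' - M) * Net.H672.dt (q - M) (q' - M) =
      γ * Net.H672.dt (q - M) (q' - M) ^ 2 by ring]
    positivity

/-- `Sg 1` from `¬ Opp` -/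
theorem sg_of_not_opp {M v q q' : ℂ} {ε : ℝ} (h : Sg ε M v q q')
    (hn : Net.H672.dt (q - M) (q' - M) ≠ 0) (ho : ¬ Opp (v - M) (q - M) (q' - M)) :
    Sg 1 M v q q' := by
  rcases h.1 with rfl | rfl
  · exact h
  · exact absurd (opp_of_sg h hn) ho

/-- a positive combination is a triangle -/
theorem sg_of_pos {M v q q' : ℂ} {α β γ : ℝ} (hα : 0 < α) (hβ : 0 < β) (hγ : 0 < γ)
    (h : (α : ℂ) * (v - M) + (β : ℂ) * (q - M) + (γ : ℂ) * (q' - M) = 0) : Sg 1 M v q q' := by
  refine ⟨Or.inl rfl, β / α, γ / α, div_pos hβ hα, div_pos hγ hα, ?_⟩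
  have : (α : ℂ) ≠ 0 := by exact_mod_cast hα.ne'
  push_cast
  field_simp
  linear_combination h

/-- the facts at a centre of the class (V) -/
structure VV (T : ℂ → Set (Fin 6)) (z : ℂ) : Prop where
  L2 : ∀ {v q}, EE T z v → EE T z q → T q = (T v)ᶜ →
    (∃ v', v' ≠ v ∧ EE T z v' ∧ T v' = T v) ∨ ∃ q', q' ≠ q ∧ EE T z q' ∧ T q' = T q
  s12 : ∀ {v q q'}, Mid T (EE T) z v q q' → (∀ m, EE T z m → T m = T v → m = v) →
    (∀ m, EE T z m → T m = (T v)ᶜ → m = q ∨ m = q') → cr (v - z) (q - z) * cr (v - z) (q' - z) < 0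
  same : ∀ {v q q'}, Mid T (EE T) z v q q' → (∀ m, EE T z m → T m = T v → m = v) →
    ore T z q = ore T z v → 0 < ore T z v * cr (v - z) (q - z) ∧
      (Opp (v - z) (q - z) (q' - z) → 1 / 2 < ip (v - z) (q - z))
  diff : ∀ {v q q'}, Mid T (EE T) z v q q' → (∀ m, EE T z m → T m = T v → m = v) →
    ore T z q ≠ ore T z v → ore T z v * cr (v - z) (q - z) < 0 ∧ ip (v - z) (q - z) < 1 / 2 ∧
      (Opp (v - z) (q - z) (q' - z) → ip (v - z) (q - z) < -(1 / 2))
  pts : PtV T z

/-- in some network the centre is a triangle whose double ends have different orientations -/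
def VT (T : ℂ → Set (Fin 6)) (z : ℂ) : Prop :=
  ∃ v q q', Mid T (EE T) z v q q' ∧ ¬ Opp (v - z) (q - z) (q' - z) ∧ ore T z q ≠ ore T z q'

/-- the facts of `TabU2` at one centre -/
structure TabC (T : ℂ → Set (Fin 6)) (z : ℂ) : Prop where
  s12 : ∀ {v q q' : ℂ}, EE T z v → EE T z q → EE T z q' → T q = (T v)ᶜ → T q' = (T v)ᶜ →
    q ≠ q' → (∀ m, EE T z m → T m = T v → m = v) →
    (∀ m, EE T z m → T m = (T v)ᶜ → m = q ∨ m = q') → cr (v - z) (q - z) * cr (v - z) (q' - z) < 0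
  out : ∀ {v q : ℂ}, EE T z v → EE T z q → T q = (T v)ᶜ →
    (∀ m, EE T z m → T m = T v → m = v) → (∀ m, EE T z m → T m = (T v)ᶜ → m = q) →
    0 < ore T z v * cr (v - z) (q - z)
  f2 : ∀ {v q q' : ℂ}, EE T z v → EE T z q → EE T z q' → T q = (T v)ᶜ → T q' = (T v)ᶜ →
    q ≠ q' → (∀ m, EE T z m → T m = T v → m = v) → Opp (v - z) (q - z) (q' - z) →
    (∃ Y : Set (Fin 6), Bad22 (PE T Y) (PE T Yᶜ) z) ∨ (SgE T z v q ∧ SgE T z v q')

theorem tabC_of_tab (h : Irr U T) (h4 : ∀ z, (T z).ncard ≤ 4) (ht : H448.Tab T z) : TabC T z where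
  s12 := fun {v q q'} hv hq hq' hc hc' hne h1 h2 =>
    ht.s12 (T v) v q q' ⟨hv, rfl⟩ ⟨hq, hc⟩ ⟨hq', hc'⟩ hne
      (fun m hm => h1 m hm.1 hm.2) (fun m hm => h2 m hm.1 hm.2)
  out := fun {v q} hv hq hc h1 h2 =>
    ht.out (T v) v q ⟨hv, rfl⟩ ⟨hq, hc⟩
      (fun m hm => h1 m hm.1 hm.2) (fun m hm => h2 m hm.1 hm.2)
  f2 := fun {v q q'} hv hq hq' hc hc' hne h1 ho => Or.inl <|
    ht.bad (T v) v q q' ⟨hv, rfl⟩ ⟨hq, hc⟩ ⟨hq', hc'⟩ hne
      (fun m hm => h1 m hm.1 hm.2)
      (fun _ hm => H448.le_two h h4 (X := T v) ⟨hv, rfl⟩ ⟨hq, hc⟩ ⟨hq', hc'⟩ hne hm) ho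

theorem Opp.symm' {t k l : ℂ} (h : Opp t k l) : Opp t l k := by
  obtain ⟨h1, h2⟩ := h
  have e : ∀ x y : ℂ, det y x = -det x y := fun x y => by unfold det; ring
  constructor
  · rw [e t l, e k t]; linarith
  · rw [e t l, e k l]
    have h3 := mul_pos h1 h2
    have h4 : det k t * det t l * (det k t * det k l) =
      (det k t) ^ 2 * (det t l * det k l) := by ring
    rw [h4] at h3
    have h5 : 0 < det t l * det k l := by
      by_contra h6
      exact absurd (mul_nonpos_of_nonneg_of_nonpos (sq_nonneg (det k t)) (not_lt.1 h6)) (not_le.2 h3)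
    linarith

/-- the rule gives the signs of helper503's web -/
theorem VV.sgE (V : VV T z) (m : Mid T (EE T) z v q q')
    (h1 : ∀ m, EE T z m → T m = T v → m = v) (ho : Opp (v - z) (q - z) (q' - z)) :
    SgE T z v q := by
  unfold SgE
  by_cases h2 : ore T z q = ore T z v
  · obtain ⟨a1, a2⟩ := V.same m h1 h2
    have a3 : 1 / 2 < Net.dt (v - z) (q - z) := a2 ho
    exact mul_pos a1 (by linarith)
  · obtain ⟨a1, -, a2⟩ := V.diff m h1 h2
    have a3 : Net.dt (v - z) (q - z) < -(1 / 2) := a2 ho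
    exact mul_pos_of_neg_of_neg a1 (by linarith)

theorem tabC_of_VV (V : VV T z) : TabC T z where
  s12 := fun {v q q'} hv hq hq' hc hc' hne h1 h2 => V.s12 ⟨hv, hq, hq', hc, hc', hne⟩ h1 h2
  out := fun {v q} hv hq hc h1 h2 => by
    exfalso
    rcases V.L2 hv hq hc with ⟨v', h5, h6, h7⟩ | ⟨q', h5, h6, h7⟩
    · exact h5 (h1 v' h6 h7)
    · exact h5 (h2 q' h6 (h7.trans hc))
  f2 := fun {v q q'} hv hq hq' hc hc' hne h1 ho => Or.inr
    ⟨V.sgE ⟨hv, hq, hq', hc, hc', hne⟩ h1 ho,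
      V.sgE ⟨hv, hq', hq, hc', hc, hne.symm⟩ h1 (Opp.symm' ho)⟩

theorem tabU2_of (ht : ∀ z v q, EE T z v → EE T z q → T q = (T v)ᶜ → TabC T z) : TabU2 T where
  s12 := fun hv hq hq' hc hc' hne h1 h2 => (ht _ _ _ hv hq hc).s12 hv hq hq' hc hc' hne h1 h2
  out := fun hv hq hc h1 h2 => (ht _ _ _ hv hq hc).out hv hq hc h1 h2
  f2 := fun hv hq hq' hc hc' hne h1 ho => (ht _ _ _ hv hq hc).f2 hv hq hq' hc hc' hne h1 ho

/-- a two-pair centre from an end -/
theorem dpt_of_ee (h : Irr U T) (hv : EE T z v) : ∃ a b c d, DPt T z a b c d := by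
  obtain ⟨a, b, c, d, h1, h2⟩ := hv.names
  exact ⟨a, b, c, d, hv.dpt h h1 h2⟩

/-- **Row XD with the class (V)**: every two-pair centre is good, or has the three facts and a
(2,2) network, or is of class (V). -/
theorem no_D_V3 (h : Irr U T) (h4 : ∀ z, (T z).ncard ≤ 4)
    (hD : ∀ z a b c d, DPt T z a b c d → H358.Good U T z ∨
      (TabC T z ∧ H358.Has22 T z) ∨ (VV T z ∧ VT T z)) :
    ∀ z a b c d, DPt T z a b c d → False := by
  have hl : LP3EE T := H448.lp3EE h h4
  have ht : TabU2 T := by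
    refine tabU2_of fun z v q hv hq hc => ?_
    obtain ⟨a, b, c, d, hz⟩ := dpt_of_ee h hv
    rcases hD z a b c d hz with h5 | h5 | h5
    · exact tabC_of_tab h h4 (H448.tab_ok h h4 h5.1)
    · exact h5.1
    · exact tabC_of_VV h5.1
  have h22 : ∀ z, ¬ H358.Has22 T z := by
    rintro z ⟨v₁, v₂, q₁, q₂, h1, h2, h12, k1, k2, k12, e2, f1, f2⟩
    exact no22_EE2 h h4 hl ht h1 h2 h12 k1 k2 k12 e2 f1 f2
  have hD' : ∀ z v, EE T z v → H358.Good U T z ∨ VV T z := by
    intro z v hv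
    obtain ⟨a, b, c, d, hz⟩ := dpt_of_ee h hv
    rcases hD z a b c d hz with h5 | h5 | h5
    · exact Or.inl h5
    · exact absurd h5.2 (h22 z)
    · exact Or.inr h5.1
  have W : World T :=
    { h11 := fun {z v q} hv hq hc => by
        rcases hD' z v hv with h5 | h5
        · exact (l23_good h h4 h5.1).L2 hv hq hc
        · exact h5.L2 hv hq hc
      h22 := h22
      sec := fun hv hq hq' hne e1 e2 hs e3 => second_EE2 h h4 hl ht hv hq hq' hne e1 e2 hs e3
      s12 := fun hv hq hq' hc hc' hne h1 h2 => ht.s12 hv hq hq' hc hc' hne h1 h2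
      com := common_pts h fun z a b c d hz => by
        rcases hD z a b c d hz with h5 | h5 | h5
        · exact fun y hy => (h5.2 y hy).imp id Or.inl
        · exact absurd h5.2 (h22 z)
        · exact h5.1.pts }
  have D := W.snet h h4
  -- the rule at the centres of class (V)
  have hR : ∀ {M : ℂ}, VV T M → SNet.VR T (EE T) (ore T) M := by
    intro M V v q q' ε m hε
    have hs := fun s hs e => W.single m (s := s) hs e
    constructor
    · intro h5
      obtain ⟨a1, a2⟩ := V.same m hs h5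
      refine ⟨a1, fun h6 => ?_⟩
      rw [h6] at hε
      exact a2 (opp_of_sg hε (D.nondeg m))
    · intro h5
      obtain ⟨a1, a2, -⟩ := V.diff m hs h5
      exact ⟨a1, a2⟩
  have hO : ∀ {M v q q' : ℂ}, Mid T (EE T) M v q q' → Sg (-1) M v q q' →
      SNet.VR T (EE T) (ore T) M := by
    intro M v q q' m hs
    rcases hD' M v m.hv with h5 | h5
    · exfalso
      obtain ⟨α, β, γ, hα, hβ, hγ, hl⟩ := (l23_good h h4 h5.1).L3 m.hv m.hq m.hq' m.e m.e' m.ne
        (fun s hs e => W.single m hs e) (fun s hs e => le_two_mid h h4 m hs e)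
      have := (sg_of_pos hα hβ hγ hl).uniq hs (D.nondeg m)
      norm_num at this
    · exact hR h5
  refine H358.no_D_of_22 h h4 h22 fun z a b c d hz => ?_
  rcases hD z a b c d hz with h5 | h5 | h5
  · exact Or.inl h5
  · exact Or.inr h5.2
  · exfalso
    obtain ⟨V, v, q, q', m, ho, hne⟩ := h5
    obtain ⟨ε, hε⟩ := D.exists_sg m
    exact D.kill_V hO (hR V) m (sg_of_not_opp hε (D.nondeg m) ho) hne

end Vale.Agent.P032.S5.H12
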